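import Mathlib

/-! # Row 259 (Nagata): basic rings.  `K = ℂ((T^ℝ))`, `B = ℂ[ζ^±]((T^ℝ))`, `A = ℂ⟦t⟧((T^ℝ))`. -/

set_option autoImplicit false

namespace Crest.Agent.R259

open scoped LaurentPolynomial

/-- Laurent polynomials in `ζ`. -/
abbrev L : Type := LaurentPolynomial ℂ
/-- The ground field. -/
abbrev K : Type := HahnSeries ℝ ℂ
/-- Functions on the Tate curve near one tropical point. -/
abbrev B : Type := HahnSeries ℝ L
/-- Their expansions at a point `ζ = z + t`. -/
abbrev A : Type := HahnSeries ℝ (PowerSeries ℂ)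

/-- The unit `z + t` of `ℂ⟦t⟧`. -/
noncomputable def zu (z : ℂˣ) : (PowerSeries ℂ)ˣ :=
  (PowerSeries.isUnit_iff_constantCoeff.2
    (by simp : IsUnit (PowerSeries.constantCoeff (PowerSeries.C (z : ℂ) + PowerSeries.X)))).unit

lemma zu_val (z : ℂˣ) : (zu z : PowerSeries ℂ) = PowerSeries.C (z : ℂ) + PowerSeries.X := rfl

/-- Expansion of a Laurent polynomial at `ζ = z + t`. -/
noncomputable def phi (z : ℂˣ) : L →+* PowerSeries ℂ :=
  LaurentPolynomial.eval₂ PowerSeries.C (zu z)

/-- Coefficientwise map of Hahn series, as a ring hom. -/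
noncomputable def hmap {R S : Type*} [CommRing R] [CommRing S] (f : R →+* S) :
    HahnSeries ℝ R →+* HahnSeries ℝ S where
  toFun x := x.map f
  map_one' := HahnSeries.map_one f.toMonoidWithZeroHom
  map_mul' _ _ := HahnSeries.map_mul (f : R →ₙ+* S)
  map_zero' := by ext; simp
  map_add' _ _ := HahnSeries.map_add (f : R →+ S)

@[simp] lemma hmap_coeff {R S : Type*} [CommRing R] [CommRing S] (f : R →+* S)
    (x : HahnSeries ℝ R) (v : ℝ) : (hmap f x).coeff v = f (x.coeff v) := rfl

/-- The tropical window of length `n` at position `a`. -/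
def Win (a : ℝ) (n : ℕ) (l : ℤ) : Prop :=
  0 ≤ 2 * (l : ℝ) + n + a * n ∧ 2 * (l : ℝ) - n + a * n ≤ 0

end Crest.Agent.R259
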