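import Mathlib
import Crest.Prelude.Def_VanishingOrder

/-! # Row 259 (Nagata): deformation to the normal cone, algebraically. -/

set_option autoImplicit false

namespace Crest.Agent.R259

open MvPolynomial Crest.AlgGeometry

/-- Vanishing to order `m` at `p` gives divisibility by `t^m` at points congruent to `p` mod `t`. -/
lemma dvd_of_vanish {R E σ : Type*} [CommRing R] [CommRing E] [Fintype σ] (ψ : R →+* E)
    (p : σ → R) (z : σ → E) (t : E) (hz : ∀ j, t ∣ z j - ψ (p j)) (f : MvPolynomial σ R) (m : ℕ)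
    (hf : VanishesToOrder f p m) : t ^ m ∣ eval₂Hom ψ z f := by
  classical
  set F := aeval (fun j => X j + C (p j)) f with hF
  have e : eval₂Hom ψ z f = eval₂Hom ψ (fun j => z j - ψ (p j)) F := by
    have : eval₂Hom ψ z = (eval₂Hom ψ (fun j => z j - ψ (p j))).comp
        (aeval (fun j => X j + C (p j)) : MvPolynomial σ R →ₐ[R] MvPolynomial σ R).toRingHom := by
      refine MvPolynomial.ringHom_ext (fun r => ?_) (fun j => ?_) <;> simp
    rw [this]; rfl
  rw [e, coe_eval₂Hom, eval₂_eq']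
  refine Finset.dvd_sum fun α hα => Dvd.dvd.mul_left ?_ _
  have hm : m ≤ ∑ i, α i := by
    by_contra hlt
    have := congrArg (coeff α) (hf α.degree (by rw [Finsupp.degree_eq_sum]; omega))
    rw [coeff_homogeneousComponent, if_pos rfl, coeff_zero] at this
    exact mem_support_iff.1 hα this
  refine (pow_dvd_pow t hm).trans ?_
  rw [← Finset.prod_pow_eq_pow_sum]
  exact Finset.prod_dvd_prod_of_dvd _ _ fun i _ => pow_dvd_pow_of_dvd (hz i) _

variable {K B D : Type*} [CommRing K] [CommRing B] [CommRing D]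

/-- Evaluation at `(x, y + ε w)`. -/
noncomputable def evE (ι : K →+* B) (x : Fin 2 → B) (ρ : B →+* D) (w : D) :
    MvPolynomial (Fin 2) K →+* Polynomial D :=
  eval₂Hom (Polynomial.C.comp (ρ.comp ι))
    ![Polynomial.C (ρ (x 0)), Polynomial.C (ρ (x 1)) + Polynomial.X * Polynomial.C w]

lemma evE_coeff_zero (ι : K →+* B) (x : Fin 2 → B) (ρ : B →+* D) (w : D)
    (h : MvPolynomial (Fin 2) K) : (evE ι x ρ w h).coeff 0 = ρ (eval₂Hom ι x h) := by
  have : Polynomial.constantCoeff.comp (evE ι x ρ w) = ρ.comp (eval₂Hom ι x) := by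
    refine MvPolynomial.ringHom_ext (fun r => ?_) (fun j => ?_)
    · simp [evE]
    · fin_cases j <;> simp [evE]
  exact congrArg (· h) this

lemma evE_coeff_one (ι : K →+* B) (x : Fin 2 → B) (ρ : B →+* D) (w : D)
    (h : MvPolynomial (Fin 2) K) :
    (evE ι x ρ w h).coeff 1 = ρ (eval₂Hom ι x (pderiv 1 h)) * w := by
  induction h using MvPolynomial.induction_on with
  | C c => simp [evE]
  | add p q hp hq => simp only [map_add, Polynomial.coeff_add, hp, hq, add_mul]
  | mul_X p j hp =>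
    have e : ∀ P Q : Polynomial D, (P * Q).coeff 1 = P.coeff 0 * Q.coeff 1 + P.coeff 1 * Q.coeff 0 :=
      fun P Q => by simp [Polynomial.coeff_mul, Finset.Nat.antidiagonal_succ]
    rw [map_mul, e, hp, evE_coeff_zero, evE_coeff_zero, pderiv_mul]
    fin_cases j
    · simp [evE]; ring
    · simp [evE]; ring

lemma evE_pow_mul (ι : K →+* B) (x : Fin 2 → B) (ρ : B →+* D) (w : D)
    (g h : MvPolynomial (Fin 2) K) (hg : eval₂Hom ι x g = 0) (j : ℕ) :
    ∃ Q : Polynomial D, evE ι x ρ w (g ^ j * h) = Polynomial.X ^ j * Q ∧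
      Q.coeff 0 = ρ (eval₂Hom ι x h) * (ρ (eval₂Hom ι x (pderiv 1 g)) * w) ^ j := by
  obtain ⟨G, hG⟩ : Polynomial.X ∣ evE ι x ρ w g := by
    rw [Polynomial.X_dvd_iff, evE_coeff_zero, hg, map_zero]
  have h1 : G.coeff 0 = ρ (eval₂Hom ι x (pderiv 1 g)) * w := by
    rw [← evE_coeff_one, hG, Polynomial.coeff_X_mul]
  refine ⟨G ^ j * evE ι x ρ w h, by rw [map_mul, map_pow, hG]; ring, ?_⟩
  rw [Polynomial.mul_coeff_zero, evE_coeff_zero, mul_comm, ← h1, Polynomial.coeff_zero_eq_eval_zero,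
    Polynomial.eval_pow, ← Polynomial.coeff_zero_eq_eval_zero]

/-- The `ε^k`-component of a polynomial over `K[ε]`. -/
noncomputable def part (f : MvPolynomial (Fin 2) (Polynomial K)) (k : ℕ) : MvPolynomial (Fin 2) K :=
  ∑ α ∈ f.support, monomial α ((coeff α f).coeff k)

lemma coeff_part (f : MvPolynomial (Fin 2) (Polynomial K)) (k : ℕ) (α : Fin 2 →₀ ℕ) :
    coeff α (part f k) = (coeff α f).coeff k := by
  classical
  rw [part, coeff_sum, Finset.sum_eq_single α]
  · simp
  · intro β _ hβ; simp [coeff_monomial, hβ]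
  · intro h; simp [notMem_support_iff.1 h]

lemma totalDegree_part (f : MvPolynomial (Fin 2) (Polynomial K)) (k : ℕ) :
    (part f k).totalDegree ≤ f.totalDegree := by
  refine Finset.sup_mono fun α hα => ?_
  rw [mem_support_iff] at hα ⊢
  intro h
  exact hα (by rw [coeff_part, h, Polynomial.coeff_zero])

lemma exists_sum_part (f : MvPolynomial (Fin 2) (Polynomial K)) :
    ∃ N, f = ∑ k ∈ Finset.range N, C (Polynomial.X ^ k) * map Polynomial.C (part f k) := by
  refine ⟨f.support.sup (fun α => (coeff α f).natDegree) + 1, MvPolynomial.ext _ _ fun α => ?_⟩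
  have h : (coeff α f).natDegree < f.support.sup (fun α => (coeff α f).natDegree) + 1 := by
    by_cases hα : α ∈ f.support
    · exact Nat.lt_succ_of_le (Finset.le_sup (f := fun α => (coeff α f).natDegree) hα)
    · simp [notMem_support_iff.1 hα]
  rw [coeff_sum]
  conv_lhs => rw [Polynomial.as_sum_range' _ _ h]
  refine Finset.sum_congr rfl fun k _ => ?_
  rw [coeff_C_mul, coeff_map, coeff_part, mul_comm, Polynomial.C_mul_X_pow_eq_monomial]

/-- The initial form in `ε`. -/
theorem cone (ι : K →+* B) (x : Fin 2 → B) (g : MvPolynomial (Fin 2) K)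
    (hg : eval₂Hom ι x g = 0)
    (hfac : ∀ f : MvPolynomial (Fin 2) K, f ≠ 0 →
      ∃ j h, f = g ^ j * h ∧ 3 * j + h.totalDegree = f.totalDegree ∧ eval₂Hom ι x h ≠ 0)
    (f : MvPolynomial (Fin 2) (Polynomial K)) (hf : f ≠ 0) :
    ∃ (ν : ℕ) (J : Finset ℕ) (h : ℕ → MvPolynomial (Fin 2) K), J.Nonempty ∧
      (∀ j ∈ J, 3 * j + (h j).totalDegree ≤ f.totalDegree ∧ eval₂Hom ι x (h j) ≠ 0) ∧
      ∀ (ρ : B →+* D) (w : D), (eval₂Hom (Polynomial.mapRingHom (ρ.comp ι))
        ![Polynomial.C (ρ (x 0)), Polynomial.C (ρ (x 1)) + Polynomial.X * Polynomial.C w] f).coeff ν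
        = ∑ j ∈ J, ρ (eval₂Hom ι x (h j)) * (ρ (eval₂Hom ι x (pderiv 1 g)) * w) ^ j := by
  classical
  obtain ⟨N, hN⟩ := exists_sum_part f
  choose! jk hk hjk using fun k => hfac (part f k)
  set S := (Finset.range N).filter fun k => part f k ≠ 0 with hS
  have hSne : S.Nonempty := by
    by_contra he
    apply hf
    rw [hN]
    refine Finset.sum_eq_zero fun k hk' => ?_
    have : part f k = 0 := by
      by_contra h0
      exact he ⟨k, by simp only [hS, Finset.mem_filter]; exact ⟨hk', h0⟩⟩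
    rw [this, map_zero, mul_zero]
  obtain ⟨k₀, hk₀, hmin⟩ := Finset.exists_min_image S (fun k => k + jk k) hSne
  set ν := k₀ + jk k₀ with hν
  set S₀ := S.filter fun k => k + jk k = ν with hS₀
  have hmem : ∀ k ∈ S₀, part f k ≠ 0 ∧ ν - jk k = k := fun k hk' => by
    simp only [hS₀, hS, Finset.mem_filter] at hk'
    exact ⟨hk'.1.2, by omega⟩
  refine ⟨ν, S₀.image jk, fun j => hk (ν - j), ⟨jk k₀, Finset.mem_image_of_mem _ ?_⟩, ?_, ?_⟩
  · simp only [hS₀, Finset.mem_filter]; exact ⟨hk₀, rfl⟩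
  · intro j hj
    obtain ⟨k, hk', rfl⟩ := Finset.mem_image.1 hj
    obtain ⟨h1, h2⟩ := hmem k hk'
    simp only [h2]
    exact ⟨(hjk k h1).2.1 ▸ totalDegree_part f k, (hjk k h1).2.2⟩
  · intro ρ w
    rw [Finset.sum_image (fun k hk' k' hk'' e => by
      rw [← (hmem k hk').2, ← (hmem k' hk'').2, e])]
    set Ev := eval₂Hom (Polynomial.mapRingHom (ρ.comp ι))
        ![Polynomial.C (ρ (x 0)), Polynomial.C (ρ (x 1)) + Polynomial.X * Polynomial.C w] with hEv
    have e1 : Ev.comp (map Polynomial.C) = evE ι x ρ w := by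
      refine MvPolynomial.ringHom_ext (fun r => ?_) (fun j => ?_) <;> simp [evE, hEv]
    have e2 : ∀ k, Ev (C (Polynomial.X ^ k) * map Polynomial.C (part f k)) =
        Polynomial.X ^ k * evE ι x ρ w (part f k) := fun k => by
      rw [map_mul, ← e1]; simp [hEv]
    conv_lhs => rw [hN]
    rw [map_sum, Polynomial.finsetSum_coeff, hS₀, hS, Finset.filter_filter, Finset.sum_filter]
    refine Finset.sum_congr rfl fun k hk' => ?_
    rw [e2]
    by_cases h0 : part f k = 0
    · simp [h0]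
    · obtain ⟨Q, hQ, hQ0⟩ := evE_pow_mul ι x ρ w g (hk k) hg (jk k)
      have hle := hmin k (by simp only [hS, Finset.mem_filter]; exact ⟨hk', h0⟩)
      rw [(hjk k h0).1, hQ, ← mul_assoc, ← pow_add, Polynomial.coeff_X_pow_mul']
      by_cases h1 : k + jk k = ν
      · rw [if_pos h1.le, if_pos ⟨(hjk k h0).1 ▸ h0, h1⟩, ← h1, Nat.sub_self, hQ0]
        simp only [Nat.add_sub_cancel]
      · rw [if_neg (by omega), if_neg (fun h => h1 h.2)]

end Crest.Agent.R259
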