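import Crest.Agent.R259.Basic

/-! # Row 259 (Nagata): the lattice count in the sheared triangle. -/

set_option autoImplicit false

namespace Crest.Agent.R259

open Polynomial

theorem cnt_dvd_of_taylor {Q : ℂ[X]} {z : ℂ} {b : ℕ} (h : X ^ b ∣ taylor z Q) :
    (X - C z) ^ b ∣ Q := by
  obtain ⟨u, hu⟩ := h
  refine ⟨taylor (-z) u, ?_⟩
  have := congrArg (taylor (-z)) hu
  rw [taylor_taylor, neg_add_cancel, taylor_zero, taylor_mul, taylor_X_pow, C_neg,
    ← sub_eq_add_neg] at this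
  exact this

theorem cnt_coeff_mul_T (f : L) (n l : ℤ) :
    (f * LaurentPolynomial.T n).coeff l = f.coeff (l - n) := by
  rw [LaurentPolynomial.T, AddMonoidAlgebra.coeff_mul_single_apply, mul_one, sub_eq_add_neg]

theorem cnt_phi_toLaurent (z : ℂˣ) (q : ℂ[X]) :
    phi z (toLaurent q) = ((taylor (z : ℂ) q : ℂ[X]) : PowerSeries ℂ) := by
  unfold phi
  rw [LaurentPolynomial.eval₂_toLaurent, zu_val]
  induction q using Polynomial.induction_on' with
  | add p q hp hq => rw [eval₂_add, map_add, Polynomial.coe_add, hp, hq]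
  | monomial n a =>
    rw [eval₂_monomial, taylor_monomial, Polynomial.coe_mul, Polynomial.coe_pow,
      Polynomial.coe_add, Polynomial.coe_C, Polynomial.coe_C, Polynomial.coe_X, add_comm]

theorem cnt_exists_poly (ρ : L) (l₀ : ℤ) (N : ℕ)
    (hs : ∀ l, ρ.coeff l ≠ 0 → l₀ ≤ l ∧ l < l₀ + N) :
    ∃ q : ℂ[X], q.degree < N ∧ toLaurent q * LaurentPolynomial.T l₀ = ρ := by
  refine ⟨∑ k ∈ Finset.range N, monomial k (ρ.coeff (l₀ + k)), ?_, ?_⟩
  · refine lt_of_le_of_lt (degree_sum_le _ _) ?_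
    refine (Finset.sup_lt_iff (WithBot.bot_lt_coe N)).2 fun k hk => ?_
    exact lt_of_le_of_lt (degree_monomial_le _ _) (Nat.cast_lt.2 (Finset.mem_range.1 hk))
  · ext l
    rw [cnt_coeff_mul_T, map_sum]
    simp only [toLaurent_C_mul_T, ← LaurentPolynomial.single_eq_C_mul_T,
      AddMonoidAlgebra.coeff_sum, AddMonoidAlgebra.coeff_single, Finsupp.finsetSum_apply,
      Finsupp.single_apply]
    by_cases hl : l₀ ≤ l ∧ l < l₀ + N
    · obtain ⟨k, rfl⟩ := Int.le.dest hl.1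
      rw [Finset.sum_eq_single k]
      · simp
      · intro j _ hj
        rw [if_neg]
        omega
      · intro hk
        exact absurd (Finset.mem_range.2 (by omega)) hk
    · rw [Finset.sum_eq_zero]
      · by_contra h
        exact hl (hs l (Ne.symm h))
      · intro k hk
        have := Finset.mem_range.1 hk
        rw [if_neg]
        omega

/-- A nonzero polynomial divisible by `(X-1)^b` has two exponents at distance `≥ b`
(`natDegree_mul`, `natTrailingDegree_mul`). -/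
theorem spread_of_dvd (Q : ℂ[X]) (hQ : Q ≠ 0) (b : ℕ) (h : (X - C 1) ^ b ∣ Q) :
    Q.natTrailingDegree + b ≤ Q.natDegree := by
  obtain ⟨u, rfl⟩ := h
  have hu : u ≠ 0 := right_ne_zero_of_mul hQ
  have hp : (X - C (1 : ℂ)) ^ b ≠ 0 := left_ne_zero_of_mul hQ
  have h0 : ((X - C (1 : ℂ)) ^ b).natTrailingDegree = 0 := by
    rw [natTrailingDegree_eq_zero]
    right
    rw [coeff_zero_eq_eval_zero]
    simp
  rw [natTrailingDegree_mul hp hu, natDegree_mul hp hu, h0, natDegree_pow, natDegree_X_sub_C]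
  have := natTrailingDegree_le_natDegree u
  omega

/-- Column form: if `∑_{j ∈ J} C(j,b') c j = 0` for all `b' < b` and some `c j ≠ 0` (`j ∈ J`), there are
`j₁, j₂ ∈ J` with `c j₁ ≠ 0`, `c j₂ ≠ 0`, `j₁ + b ≤ j₂`.  Recipe: `Q = ∑ j ∈ J, monomial j (c j)`;
`(taylor 1 Q).coeff b' = ∑ C(j,b') c j` (`coeff_X_add_C_pow`), so `X^b ∣ taylor 1 Q`
(`X_pow_dvd_iff`), so `(X - C 1)^b ∣ Q` (apply `taylor (-1)` / `comp`), then `spread_of_dvd`. -/
theorem column_spread (J : Finset ℕ) (c : ℕ → ℂ) (b : ℕ)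
    (h : ∀ b' < b, ∑ j ∈ J, (j.choose b' : ℂ) * c j = 0) (h0 : ∃ j ∈ J, c j ≠ 0) :
    ∃ j₁ ∈ J, ∃ j₂ ∈ J, c j₁ ≠ 0 ∧ c j₂ ≠ 0 ∧ j₁ + b ≤ j₂ := by
  set Q : ℂ[X] := ∑ j ∈ J, monomial j (c j) with hQ
  have hc : ∀ k, Q.coeff k = if k ∈ J then c k else 0 := by
    intro k
    simp only [hQ, finsetSum_coeff, coeff_monomial]
    exact Finset.sum_ite_eq' J k c
  have hc' : ∀ k, Q.coeff k ≠ 0 → k ∈ J ∧ c k ≠ 0 := by
    intro k hk
    rw [hc] at hk
    split_ifs at hk with h1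
    · exact ⟨h1, hk⟩
    · exact absurd rfl hk
  have hQ0 : Q ≠ 0 := by
    obtain ⟨j, hj, hj0⟩ := h0
    intro h1
    have := hc j
    rw [h1, coeff_zero, if_pos hj] at this
    exact hj0 this.symm
  have hd : X ^ b ∣ taylor (1 : ℂ) Q := by
    refine X_pow_dvd_iff.2 fun b' hb' => ?_
    rw [← h b' hb', hQ, map_sum, finsetSum_coeff]
    refine Finset.sum_congr rfl fun j _ => ?_
    rw [taylor_monomial, coeff_C_mul, coeff_X_add_C_pow, one_pow, one_mul, mul_comm]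
  have h1 := hc' _ (trailingCoeff_nonzero_iff_nonzero.2 hQ0)
  have h2 := hc' _ (leadingCoeff_ne_zero.2 hQ0)
  exact ⟨_, h1.1, _, h2.1, h1.2, h2.2, spread_of_dvd Q hQ0 b (cnt_dvd_of_taylor hd)⟩

/-- A nonzero Laurent polynomial supported on `N` consecutive integers has fewer than `N` zeros in
`ℂˣ`, with multiplicity.  Recipe: `ρ * T (-l₀) = toLaurent q` with `q ≠ 0`, `natDegree q < N`;
`phi z (toLaurent q) = ((taylor z q : ℂ[X]) : PowerSeries ℂ)` (`eval₂_toLaurent`, both sides are ring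
homs in `q`), `phi z (T _)` is a unit, so `X^n ∣ taylor z q` (`PowerSeries.X_pow_dvd_iff`,
`Polynomial.X_pow_dvd_iff`), `(X - C z)^n ∣ q`, and the coprime powers multiply
(`Finset.prod_dvd_of_coprime`, `pairwise_coprime_X_sub_C`). -/
theorem zeros_lt {ι : Type*} [Fintype ι] (ρ : L) (hρ : ρ ≠ 0) (l₀ : ℤ) (N : ℕ)
    (hs : ∀ l, ρ.coeff l ≠ 0 → l₀ ≤ l ∧ l < l₀ + N) (z : ι → ℂˣ) (hz : Function.Injective z)
    (n : ι → ℕ) (hn : ∀ i, (PowerSeries.X : PowerSeries ℂ) ^ n i ∣ phi (z i) ρ) :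
    ∑ i, n i < N := by
  classical
  obtain ⟨q, hq, rfl⟩ := cnt_exists_poly ρ l₀ N hs
  have hq0 : q ≠ 0 := by
    rintro rfl
    exact hρ (by rw [map_zero, zero_mul])
  have h1 : ∀ i, (X - C (z i : ℂ)) ^ n i ∣ q := by
    intro i
    have h2 := hn i
    rw [map_mul, ((LaurentPolynomial.isUnit_T l₀).map (phi (z i))).dvd_mul_right,
      cnt_phi_toLaurent, PowerSeries.X_pow_dvd_iff] at h2
    refine cnt_dvd_of_taylor (X_pow_dvd_iff.2 fun d hd => ?_)
    rw [← Polynomial.coeff_coe]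
    exact h2 d hd
  have hz' : Function.Injective fun i => (z i : ℂ) := fun i j h => hz (Units.ext h)
  have h3 : ∏ i, (X - C (z i : ℂ)) ^ n i ∣ q :=
    Finset.prod_dvd_of_coprime
      (fun i _ j _ hij => (pairwise_coprime_X_sub_C hz' hij).pow) fun i _ => h1 i
  have h4 := natDegree_le_of_dvd h3 hq0
  rw [natDegree_prod_of_monic _ _ fun i _ => (monic_X_sub_C _).pow _] at h4
  simp only [natDegree_pow, natDegree_X_sub_C, mul_one] at h4
  exact lt_of_le_of_lt h4 ((natDegree_lt_iff_degree_lt hq0).2 hq)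

/-- Choice of the tropical position `a` and the twist `κ`.  With `s = √r > 3`, `σ = 3s - 9`,
`κ = ⌊-σ - 9/2⌋`, `t₀ = -σ - 9/2 - κ ∈ [0,1)`, `a = (2/9)(t₀ + ε)`, `ε ∈ (0,1/2)`, `h = d/3 - j`,
`n = 3(d-3j) = 9h`: `Win a n l` says `(σ-ε) h ≤ l - κ h ≤ (3s-ε) h`.  Take `ε` so small that for each of
the finitely many `j` no integer `l' = l + κ j` has `σ h - ε h ≤ l' - κ d/3 < σ h`
(`ε h < x - (⌈x⌉ - 1)` for `x = σ h + κ d / 3`; eventually true as `ε → 0⁺`). -/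
theorem exists_params (s : ℝ) (d : ℕ) :
    ∃ (a : ℝ) (κ : ℤ), 0 < a ∧ a < 1 / 3 ∧ ∀ j : ℕ, 3 * j ≤ d → ∀ l : ℤ,
      Win a (3 * (d - 3 * j)) l →
      (3 * s - 9) * ((d : ℝ) / 3 - j) ≤ (l : ℝ) - κ * ((d : ℝ) / 3 - j) ∧
      ((l : ℝ) - κ * ((d : ℝ) / 3 - j) < 3 * s * ((d : ℝ) / 3 - j) ∨
        ((d : ℝ) / 3 - j = 0 ∧ l = 0)) := by
  set κ : ℤ := ⌊-(3 * s - 9) - 9 / 2⌋ with hκ
  have hκ1 : (κ : ℝ) ≤ -(3 * s - 9) - 9 / 2 := Int.floor_le _
  have hκ2 : -(3 * s - 9) - 9 / 2 < κ + 1 := Int.lt_floor_add_one _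
  set x : ℕ → ℝ := fun j => (3 * s - 9) * ((d : ℝ) / 3 - j) + κ * d / 3 with hx
  have hev : ∀ᶠ ε : ℝ in nhds 0, ∀ j ∈ Finset.range (d + 1),
      ε * ((d : ℝ) / 3 - j) < x j - (⌈x j⌉ - 1) := by
    refine (Filter.eventually_all_finset _).2 fun j _ => ?_
    have h1 : Filter.Tendsto (fun ε : ℝ => ε * ((d : ℝ) / 3 - j)) (nhds 0) (nhds 0) := by
      have : Continuous fun ε : ℝ => ε * ((d : ℝ) / 3 - j) := by fun_prop
      simpa using this.tendsto 0
    refine h1.eventually (gt_mem_nhds ?_)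
    have := Int.ceil_lt_add_one (x j)
    linarith
  have hev2 : ∀ᶠ ε : ℝ in nhds 0, ε < 1 / 2 := gt_mem_nhds (by norm_num)
  obtain ⟨ε, ⟨hε, hε2⟩, hε0⟩ :=
    (((hev.and hev2).filter_mono nhdsWithin_le_nhds).and
      (self_mem_nhdsWithin (s := Set.Ioi (0 : ℝ)))).exists
  have hε0 : 0 < ε := hε0
  refine ⟨2 / 9 * (-(3 * s - 9) - 9 / 2 - κ + ε), κ, by linarith, by linarith, ?_⟩
  intro j hj l hw
  obtain ⟨hw1, hw2⟩ := hw
  have hn : ((3 * (d - 3 * j) : ℕ) : ℝ) = 9 * ((d : ℝ) / 3 - j) := by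
    rw [Nat.cast_mul, Nat.cast_sub hj]
    push_cast
    ring
  rw [hn] at hw1 hw2
  have hh : 0 ≤ (d : ℝ) / 3 - j := by
    have : ((3 * j : ℕ) : ℝ) ≤ d := by exact_mod_cast hj
    push_cast at this
    linarith
  have hεj := hε j (Finset.mem_range.2 (by omega))
  constructor
  · have h1 : ((⌈x j⌉ - 1 : ℤ) : ℝ) < ((l + κ * j : ℤ) : ℝ) := by
      push_cast
      simp only [hx] at hεj ⊢
      nlinarith
    have h2 : ⌈x j⌉ ≤ l + κ * j := by
      have : ⌈x j⌉ - 1 < l + κ * j := by exact_mod_cast h1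
      omega
    have h3 : x j ≤ ((l + κ * j : ℤ) : ℝ) := Int.ceil_le.1 h2
    push_cast at h3
    simp only [hx] at h3
    nlinarith
  · rcases hh.eq_or_lt with h0 | h0
    · right
      refine ⟨h0.symm, ?_⟩
      rw [← h0] at hw1 hw2
      have : (l : ℝ) = 0 := by linarith
      exact_mod_cast this
    · left
      have := mul_pos hε0 h0
      nlinarith

/-- The count.  Recipe: suppose some `P j ≠ 0`.  Put
`ρ b = ∑ j ∈ J, C(j,b) • (P j * T (κ j))`; `ρ b ≠ 0` for `b` = the largest `j` with `P j ≠ 0`; let `b` be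
minimal with `ρ b ≠ 0`.  For `l'` in the support of `ρ b` apply `column_spread` to
`c j = (P j).coeff (l' - κ j)`; with `y = l' - κ d/3`, `h j = d/3 - j` (so `y = l - κ h j` for
`l = l' - κ j`) one gets `(3s-9) h₁ ≤ y`, `h₁ ≥ h₂ + b`, `h₁ ≤ d/3`, and `y < 3 s h₂` or `h₂ = 0 = y`;
hence `r b - 3 s b ≤ y < s d - 3 s b` (`s² = r`, `s > 3`; in the case `h₂ = 0 = y`: `h₁ = 0`, `b = 0`,
`d ≥ 1`).  So the support lies in `[l₀, l₀ + N)`, `l₀ = ⌈r b - 3 s b + κ d/3⌉`, `N = (∑ m i) - r b`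
(natural subtraction; the real interval has length `s d - r b ≤ ∑ m i - r b`, and it is nonempty).
`X^(m i) ∣ X^b * phi (z i) (ρ b)` gives `X^(m i - b) ∣ phi (z i) (ρ b)`, and
`∑ (m i - b) ≥ ∑ m i - r b = N` contradicts `zeros_lt`. -/
theorem count (r : ℕ) (hr : 10 ≤ r) (d : ℕ) (hd : 1 ≤ d) (m : Fin r → ℕ)
    (hm : (d : ℝ) * Real.sqrt r ≤ ∑ i, (m i : ℝ)) :
    ∃ (a : ℝ) (κ : ℤ), 0 < a ∧ a < 1 / 3 ∧ ∀ (J : Finset ℕ) (P : ℕ → L),
      (∀ j ∈ J, 3 * j ≤ d) →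
      (∀ j ∈ J, ∀ l, (P j).coeff l ≠ 0 → Win a (3 * (d - 3 * j)) l) →
      ∀ z : Fin r → ℂˣ, Function.Injective z →
      (∀ i b, (PowerSeries.X : PowerSeries ℂ) ^ m i ∣ PowerSeries.X ^ b *
        phi (z i) (∑ j ∈ J, j.choose b • (P j * LaurentPolynomial.T (κ * j)))) →
      ∀ j ∈ J, P j = 0 := by
  classical
  set s : ℝ := Real.sqrt r with hs
  have hr' : (10 : ℝ) ≤ r := by exact_mod_cast hr
  have hss : s * s = r := Real.mul_self_sqrt (by linarith)
  have hs3 : 3 < s := Real.lt_sqrt_of_sq_lt (by linarith)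
  obtain ⟨a, κ, ha, ha', hW⟩ := exists_params s d
  refine ⟨a, κ, ha, ha', ?_⟩
  intro J P hJ hP z hz hdiv j₀ hj₀
  by_contra hne
  set ρ : ℕ → L := fun b => ∑ j ∈ J, j.choose b • (P j * LaurentPolynomial.T (κ * j)) with hρ
  have hco : ∀ b l, (ρ b).coeff l = ∑ j ∈ J, (j.choose b : ℂ) * (P j).coeff (l - κ * j) := by
    intro b l
    simp only [hρ, AddMonoidAlgebra.coeff_sum, Finsupp.finsetSum_apply]
    refine Finset.sum_congr rfl fun j _ => ?_
    rw [← cnt_coeff_mul_T, ← nsmul_eq_mul]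
    rfl
  have hex : ∃ b, ρ b ≠ 0 := by
    by_contra hall
    push Not at hall
    obtain ⟨l, hl⟩ : ∃ l, (P j₀).coeff l ≠ 0 := by
      by_contra h
      push Not at h
      exact hne (LaurentPolynomial.ext h)
    obtain ⟨j₁, -, j₂, h2, -, -, h3⟩ := column_spread J
      (fun j => (P j).coeff (l + κ * j₀ - κ * j)) (d + 1)
      (fun b' _ => by rw [← hco, hall]; rfl) ⟨j₀, hj₀, by simpa using hl⟩
    have := hJ j₂ h2
    omega
  set b := Nat.find hex with hb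
  have hb1 : ρ b ≠ 0 := Nat.find_spec hex
  have hb2 : ∀ b' < b, ρ b' = 0 := fun b' h => by simpa using Nat.find_min hex h
  have hd' : (1 : ℝ) ≤ d := by exact_mod_cast hd
  have hb0 : (0 : ℝ) ≤ b := Nat.cast_nonneg b
  have hsupp : ∀ l, (ρ b).coeff l ≠ 0 →
      ⌈(r : ℝ) * b - 3 * s * b + κ * d / 3⌉ ≤ l ∧
        l < ⌈(r : ℝ) * b - 3 * s * b + κ * d / 3⌉ + ((∑ i, m i) - r * b : ℕ) := by
    intro l hl
    have h0 : ∃ j ∈ J, (P j).coeff (l - κ * j) ≠ 0 := by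
      by_contra h
      push Not at h
      exact hl (by rw [hco]; exact Finset.sum_eq_zero fun j hj => by rw [h j hj, mul_zero])
    obtain ⟨j₁, h1, j₂, h2, c1, c2, h3⟩ := column_spread J (fun j => (P j).coeff (l - κ * j)) b
      (fun b' h => by rw [← hco, hb2 b' h]; rfl) h0
    have w1 := (hW j₁ (hJ _ h1) _ (hP _ h1 _ c1)).1
    have w2 := (hW j₂ (hJ _ h2) _ (hP _ h2 _ c2)).2
    have h3' : (j₁ : ℝ) + b ≤ j₂ := by exact_mod_cast h3
    have hj1 : (0 : ℝ) ≤ j₁ := Nat.cast_nonneg _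
    have hj2 : 3 * (j₂ : ℝ) ≤ d := by exact_mod_cast hJ _ h2
    have y1 : (((l - κ * j₁ : ℤ) : ℝ)) - κ * ((d : ℝ) / 3 - j₁) = l - κ * d / 3 := by
      push_cast; ring
    have y2 : (((l - κ * j₂ : ℤ) : ℝ)) - κ * ((d : ℝ) / 3 - j₂) = l - κ * d / 3 := by
      push_cast; ring
    rw [y1] at w1
    have key : (r : ℝ) * b - 3 * s * b ≤ l - κ * d / 3 ∧
        (l : ℝ) - κ * d / 3 < s * d - 3 * s * b := by
      rcases w2 with w2 | ⟨w2, w3⟩
      · rw [y2] at w2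
        have e1 : 3 * s * ((d : ℝ) / 3 - j₂) ≤ 3 * s * ((d : ℝ) / 3 - j₁ - b) :=
          mul_le_mul_of_nonneg_left (by linarith) (by linarith)
        have e2 : s * b / 3 ≤ (d : ℝ) / 3 - j₁ := by nlinarith
        have e3 : (3 * s - 9) * (s * b / 3) ≤ (3 * s - 9) * ((d : ℝ) / 3 - j₁) :=
          mul_le_mul_of_nonneg_left e2 (by linarith)
        have e4 : 0 ≤ s * j₁ := by positivity
        constructor
        · rw [← hss]; nlinarith
        · nlinarith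
      · have y0 : (l : ℝ) - κ * d / 3 = 0 := by
          rw [← y2, w2, w3]; simp
        rw [y0] at w1 ⊢
        have e1 : (d : ℝ) / 3 - j₁ ≤ 0 := by nlinarith
        have e2 : (b : ℝ) = 0 := by linarith
        rw [e2]
        constructor
        · simp
        · nlinarith
    have hN : (∑ i, (m i : ℝ)) - r * b ≤ (((∑ i, m i) - r * b : ℕ) : ℝ) := by
      have : ∑ i, m i ≤ ((∑ i, m i) - r * b) + r * b := le_tsub_add
      have h' : ((∑ i, m i : ℕ) : ℝ) ≤ (((∑ i, m i) - r * b : ℕ) : ℝ) + ((r * b : ℕ) : ℝ) := by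
        exact_mod_cast this
      push_cast at h'
      linarith
    constructor
    · exact Int.ceil_le.2 (by linarith [key.1])
    · have h5 := Int.le_ceil ((r : ℝ) * b - 3 * s * b + κ * d / 3)
      have : (l : ℝ) < ((⌈(r : ℝ) * b - 3 * s * b + κ * d / 3⌉ +
          (((∑ i, m i) - r * b : ℕ) : ℤ) : ℤ) : ℝ) := by
        rw [Int.cast_add, Int.cast_natCast]
        linarith [key.2]
      exact_mod_cast this
  have hlt := zeros_lt (ρ b) hb1 _ _ hsupp z hz (fun i => m i - b) (fun i => by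
    have h1 := hdiv i b
    rcases le_total (m i) b with h | h
    · rw [Nat.sub_eq_zero_of_le h, pow_zero]
      exact one_dvd _
    · obtain ⟨k, hk⟩ := Nat.exists_eq_add_of_le h
      rw [hk, pow_add, mul_dvd_mul_iff_left (pow_ne_zero _ PowerSeries.X_ne_zero)] at h1
      rw [hk, Nat.add_sub_cancel_left]
      exact h1)
  have hge : ∑ i, m i ≤ ∑ i : Fin r, (m i - b + b) := Finset.sum_le_sum fun i _ => le_tsub_add
  rw [Finset.sum_add_distrib, Finset.sum_const, Finset.card_univ, Fintype.card_fin,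
    smul_eq_mul] at hge
  omega

end Crest.Agent.R259
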