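import Crest.Agent.R259.Theta

/-! # Row 259 (Nagata): the plane cubic parametrised by the theta functions. -/

set_option autoImplicit false

namespace Crest.Agent.R259

open MvPolynomial

lemma totalDegree_pow_eq {k : Type*} [Field k] {g : MvPolynomial (Fin 2) k} (hg : g ≠ 0) (j : ℕ) :
    (g ^ j).totalDegree = j * g.totalDegree := by
  induction j with
  | zero => simp
  | succ j ih => rw [pow_succ, totalDegree_mul_of_isDomain (pow_ne_zero _ hg) hg, ih]; ring

/-- A non-maximal prime kernel containing a cubic and no conic is generated by a cubic. -/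
theorem exists_gen {k R R' : Type*} [Field k] [CommRing R] [IsDomain R] [CommRing R'] [IsDomain R']
    (φ : MvPolynomial (Fin 2) k →+* R) (χ : R →+* R') (g : MvPolynomial (Fin 2) k) (hg : g ≠ 0)
    (hg3 : g.totalDegree ≤ 3) (hφ : φ g = 0)
    (h2 : ∀ f, f.totalDegree ≤ 2 → φ f = 0 → f = 0) (hM : ∃ f, φ f ≠ 0 ∧ χ (φ f) = 0) :
    ∃ g₀ : MvPolynomial (Fin 2) k, g₀ ≠ 0 ∧ g₀.totalDegree = 3 ∧ φ g₀ = 0 ∧ ∀ f, f ≠ 0 →
      ∃ j h, f = g₀ ^ j * h ∧ 3 * j + h.totalDegree = f.totalDegree ∧ φ h ≠ 0 := by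
  have hI : (RingHom.ker φ).IsPrime := RingHom.ker_isPrime φ
  have hMp : (RingHom.ker (χ.comp φ)).IsPrime := RingHom.ker_isPrime _
  have hne : RingHom.ker φ ≠ ⊥ := fun h => hg (by
    have : g ∈ RingHom.ker φ := hφ
    rwa [h, Ideal.mem_bot] at this)
  obtain ⟨g₀, hg₀, hp⟩ := hI.exists_mem_prime_of_ne_bot hne
  have hsp : (Ideal.span {g₀}).IsPrime := (Ideal.span_singleton_prime hp.ne_zero).2 hp
  have hle : Ideal.span {g₀} ≤ RingHom.ker φ := (Ideal.span_singleton_le_iff_mem _).2 hg₀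
  have hlt : RingHom.ker φ < RingHom.ker (χ.comp φ) := by
    obtain ⟨f, hf, hf'⟩ := hM
    refine lt_of_le_of_ne (fun x hx => ?_) fun h => hf ?_
    · rw [RingHom.mem_ker] at hx ⊢
      simp [hx]
    · rw [← RingHom.mem_ker, h]; exact hf'
  have heq : Ideal.span {g₀} = RingHom.ker φ := by
    by_contra hne'
    have h1 := Ideal.height_add_one_le_of_lt_of_isPrime (lt_of_le_of_ne hle hne')
    have h2 := Ideal.height_add_one_le_of_lt_of_isPrime hlt
    have h0 : (⊥ : Ideal (MvPolynomial (Fin 2) k)) < Ideal.span {g₀} :=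
      bot_lt_iff_ne_bot.2 (by simpa using hp.ne_zero)
    have h3 := Ideal.height_add_one_le_of_lt_of_isPrime h0
    have h4 := Ideal.height_le_ringKrullDim_of_isPrime (I := RingHom.ker (χ.comp φ))
    rw [MvPolynomial.ringKrullDim_of_isNoetherianRing, ringKrullDim_eq_zero_of_field] at h4
    simp only [Nat.card_eq_fintype_card, Fintype.card_fin, zero_add] at h4
    have h5 : (RingHom.ker (χ.comp φ)).height ≤ 2 := WithBot.coe_le_coe.1 h4
    rw [Ideal.height_bot, zero_add] at h3
    have h6 : (1 : ℕ∞) + 1 + 1 ≤ 2 :=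
      calc (1 : ℕ∞) + 1 + 1 ≤ (Ideal.span {g₀}).height + 1 + 1 := by gcongr
        _ ≤ (RingHom.ker φ).height + 1 := by gcongr
        _ ≤ 2 := h2.trans h5
    exact absurd h6 (by norm_num)
  have hdvd : ∀ f, φ f = 0 → g₀ ∣ f := fun f hf => by
    rw [← Ideal.mem_span_singleton, heq]; exact hf
  have hdeg : g₀.totalDegree = 3 := by
    have h1 := totalDegree_le_of_dvd_of_isDomain (hdvd g hφ) hg
    have h3 : ¬ g₀.totalDegree ≤ 2 := fun h => hp.ne_zero (h2 _ h hg₀)
    omega
  refine ⟨g₀, hp.ne_zero, hdeg, hg₀, fun f hf => ?_⟩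
  obtain ⟨j, h, hnd, rfl⟩ := WfDvdMonoid.max_power_factor hf hp.irreducible
  refine ⟨j, h, rfl, ?_, fun h0 => hnd (hdvd h h0)⟩
  rw [totalDegree_mul_of_isDomain (pow_ne_zero _ hp.ne_zero) (right_ne_zero_of_mul hf),
    totalDegree_pow_eq hp.ne_zero, hdeg, mul_comm]

lemma deg_le_iff {R : Type*} [CommRing R] {f : MvPolynomial (Fin 2) R} {e : ℕ} :
    f.totalDegree ≤ e ↔ ∀ m ∈ f.support, m 0 + m 1 ≤ e := by
  have : ∀ m : Fin 2 →₀ ℕ, (m.sum fun _ e => e) = m 0 + m 1 := fun m => by
    rw [Finsupp.sum_fintype _ _ (by simp), Fin.sum_univ_two]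
  simp only [totalDegree, Finset.sup_le_iff, this]

instance : CharZero K := algebraRat.charZero K

variable {a : ℝ}

/-- The affine coordinates on the cubic. -/
noncomputable def pt (a : ℝ) : Fin 2 → B :=
  ![theta a 1 * Ring.inverse (theta a 0), theta a 2 * Ring.inverse (theta a 0)]

/-- Restriction of a polynomial to the cubic. -/
noncomputable def evl (a : ℝ) : MvPolynomial (Fin 2) K →+* B := eval₂Hom iota (pt a)

/-- The monomials in the theta functions. -/
noncomputable def mon (a : ℝ) (e b c : ℕ) : B :=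
  theta a 0 ^ (e - b - c) * theta a 1 ^ b * theta a 2 ^ c

lemma mon_eq (ha0 : 0 < a) (ha1 : a < 1 / 3) {e b c : ℕ} (h : b + c ≤ e) :
    theta a 0 ^ e * (pt a 0 ^ b * pt a 1 ^ c) = mon a e b c := by
  obtain ⟨n, rfl⟩ := Nat.exists_eq_add_of_le h
  have hu := Ring.mul_inverse_cancel _ (isUnit_th0 ha0 ha1)
  have : b + c + n - b - c = n := by omega
  simp only [pt, mon, this, Matrix.cons_val_zero, Matrix.cons_val_one, Matrix.cons_val_fin_one]
  calc _ = theta a 0 ^ n * theta a 1 ^ b * theta a 2 ^ c *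
        (theta a 0 * Ring.inverse (theta a 0)) ^ (b + c) := by ring
    _ = _ := by rw [hu]; simp

lemma inV_mon {e b c : ℕ} (h : b + c ≤ e) : InV a (3 * e) (mon a e b c) := by
  have := (((inV_theta a 0).pow (e - b - c)).mul ((inV_theta a 1).pow b)).mul
    ((inV_theta a 2).pow c)
  rwa [show 3 * (e - b - c) + 3 * b + 3 * c = 3 * e by omega] at this

lemma lead_mon (ha0 : 0 < a) (ha1 : a < 1 / 3) (e b c : ℕ) :
    ∃ v, Lead (mon a e b c) v ((b : ℤ) - c) := by
  have := (((lead_th0 ha0 ha1).pow (e - b - c)).mul ((lead_th1 ha0 ha1).pow b)).mul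
    ((lead_th2 ha0 ha1).pow c)
  rw [show ((e - b - c : ℕ) : ℤ) * 0 + b * 1 + c * -1 = b - c by ring] at this
  exact ⟨_, this⟩

lemma hom_formula (ha0 : 0 < a) (ha1 : a < 1 / 3) {f : MvPolynomial (Fin 2) K} {e : ℕ}
    (h : f.totalDegree ≤ e) :
    theta a 0 ^ e * evl a f = ∑ m ∈ f.support, iota (coeff m f) * mon a e (m 0) (m 1) := by
  rw [evl, coe_eval₂Hom, eval₂_eq', Finset.mul_sum]
  refine Finset.sum_congr rfl fun m hm => ?_
  rw [Fin.prod_univ_two, ← mon_eq ha0 ha1 (deg_le_iff.1 h m hm)]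
  ring

lemma inV_evl (ha0 : 0 < a) (ha1 : a < 1 / 3) {f : MvPolynomial (Fin 2) K} {e : ℕ}
    (h : f.totalDegree ≤ e) : InV a (3 * e) (theta a 0 ^ e * evl a f) := by
  rw [hom_formula ha0 ha1 h]
  exact InV.sum _ _ fun m hm => (inV_mon (deg_le_iff.1 h m hm)).iota_mul _

/-- The exponent vector `(b, c)`. -/
noncomputable def ev2 (b c : ℕ) : Fin 2 →₀ ℕ := Finsupp.equivFunOnFinite.symm ![b, c]

@[simp] lemma ev2_zero (b c : ℕ) : ev2 b c 0 = b := rfl
@[simp] lemma ev2_one (b c : ℕ) : ev2 b c 1 = c := rfl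

lemma fin2_ext {m m' : Fin 2 →₀ ℕ} (h0 : m 0 = m' 0) (h1 : m 1 = m' 1) : m = m' := by
  ext i; fin_cases i; exacts [h0, h1]

lemma evl_monomial (m : Fin 2 →₀ ℕ) (c : K) :
    evl a (monomial m c) = iota c * (pt a 0 ^ m 0 * pt a 1 ^ m 1) := by
  rw [evl, eval₂Hom_monomial, Finsupp.prod_fintype _ _ (by simp), Fin.prod_univ_two]

/-- No conic contains the curve. -/
lemma deg_two (ha0 : 0 < a) (ha1 : a < 1 / 3) (f : MvPolynomial (Fin 2) K)
    (hf : f.totalDegree ≤ 2) (h0 : evl a f = 0) : f = 0 := by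
  classical
  set c := coeff (ev2 1 1) f with hc
  set f' := f - monomial (ev2 1 1) c + C (c * tau) with hf'
  have hd : f'.totalDegree ≤ 2 := by
    refine (totalDegree_add _ _).trans (max_le ((totalDegree_sub _ _).trans (max_le hf ?_)) ?_)
    · rw [deg_le_iff]
      intro m hm
      rw [Finset.mem_singleton.1 (support_monomial_subset hm)]
      simp
    · rw [totalDegree_C]; omega
  have h11 : coeff (ev2 1 1) f' = 0 := by
    have : (0 : Fin 2 →₀ ℕ) ≠ ev2 1 1 := fun h => by simpa using congrArg (· 0) h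
    simp [hf', hc, coeff_C, this]
  have hsum : iota c * (theta a 1 * theta a 2 - iota tau * theta a 0 ^ 2) +
      ∑ m ∈ f'.support, iota (coeff m f') * mon a 2 (m 0) (m 1) = 0 := by
    rw [← hom_formula ha0 ha1 hd, hf', map_add, map_sub, h0, evl_monomial]
    have e1 : evl a (C (c * tau)) = iota c * iota tau := by simp [evl]
    have e2 := mon_eq ha0 ha1 (e := 2) (b := 1) (c := 1) le_rfl
    simp only [mon, ev2_zero, ev2_one] at e2 ⊢
    rw [e1]
    linear_combination (-iota c) * e2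
  have key := indep (ι := Option (Fin 2 →₀ ℕ)) (Finset.insertNone f'.support)
    (fun o => o.elim (theta a 1 * theta a 2 - iota tau * theta a 0 ^ 2)
      (fun m => mon a 2 (m 0) (m 1)))
    (fun o => o.elim (-3) (fun m => (m 0 : ℤ) - m 1)) ?_ ?_
    (fun o => o.elim c (fun m => coeff m f')) (by rw [Finset.sum_insertNone]; exact hsum)
  · have hc0 : c = 0 := key none (by simp)
    have : f' = 0 := by
      refine MvPolynomial.ext _ _ fun m => ?_
      by_contra hm
      exact hm (key (some m) (by simpa using hm))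
    rw [hf', hc0, zero_mul, monomial_zero, C_0, add_zero] at this
    exact (sub_zero f).symm.trans this
  · have hs : ∀ m ∈ f'.support, m 0 + m 1 ≤ 2 ∧ ¬ (m 0 = 1 ∧ m 1 = 1) := fun m hm =>
      ⟨deg_le_iff.1 hd m hm, fun h => (mem_support_iff.1 hm) (by
        rw [show m = ev2 1 1 from fin2_ext h.1 h.2]; exact h11)⟩
    rintro (_ | m) hm (_ | m') hm' h
    · rfl
    · have := hs m' (by simpa using hm')
      simp only [Option.elim] at h
      omega
    · have := hs m (by simpa using hm)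
      simp only [Option.elim] at h
      omega
    · have h1 := hs m (by simpa using hm)
      have h2 := hs m' (by simpa using hm')
      simp only [Option.elim] at h
      rw [fin2_ext (m := m) (m' := m') (by omega) (by omega)]
  · rintro (_ | m) -
    · exact ⟨_, lead_psi ha0 ha1⟩
    · exact lead_mon ha0 ha1 _ _ _

/-- The `ζ^l`-component of a series. -/
noncomputable def comp (l : ℤ) (s : B) : K :=
  s.map ((Finsupp.applyAddHom l).comp AddMonoidAlgebra.coeffAddEquiv.toAddMonoidHom)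

lemma comp_coeff (l : ℤ) (s : B) (v : ℝ) : (comp l s).coeff v = co s (v, l) := rfl

lemma comp_iota_mul (l : ℤ) (k : K) (s : B) : comp l (iota k * s) = k * comp l s := by
  ext v
  have h1 : (iota k).support ⊆ k.support := fun w hw h => hw (by simp [h])
  have h2 : (comp l s).support ⊆ s.support := fun w hw h => hw (by simp [comp_coeff, co, h])
  rw [comp_coeff, co, HahnSeries.coeff_mul_left' k.isPWO_support h1,
    HahnSeries.coeff_mul_right' s.isPWO_support h2, AddMonoidAlgebra.coeff_sum,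
    Finsupp.finsetSum_apply]
  refine Finset.sum_congr rfl fun ij _ => ?_
  rw [iota_coeff, ← LaurentPolynomial.single_eq_C, AddMonoidAlgebra.coeff_single_zero_mul]
  rfl

/-- Ten cubic monomials in a space of dimension at most nine. -/
lemma exists_cubic (ha0 : 0 < a) (ha1 : a < 1 / 3) :
    ∃ g : MvPolynomial (Fin 2) K, g ≠ 0 ∧ g.totalDegree ≤ 3 ∧ evl a g = 0 := by
  classical
  let ι := {p : Fin 4 × Fin 4 // (p.1 : ℕ) + p.2 ≤ 3}
  let w : ι → Fin 9 → K := fun p l => comp (l : ℕ) (mon a 3 p.1.1 p.1.2)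
  have hw : ¬ LinearIndependent K w := fun h => by
    have := h.fintype_card_le_finrank
    rw [Module.finrank_fin_fun] at this
    exact absurd this (by decide)
  obtain ⟨c, hc, p₀, hp₀⟩ := Fintype.not_linearIndependent_iff.1 hw
  refine ⟨∑ p : ι, monomial (ev2 p.1.1 p.1.2) (c p), fun h => hp₀ ?_, ?_, ?_⟩
  · have := congrArg (coeff (ev2 p₀.1.1 p₀.1.2)) h
    rw [coeff_sum, Finset.sum_eq_single p₀] at this
    · simpa using this
    · intro p _ hp
      rw [coeff_monomial, if_neg]
      intro e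
      apply hp
      have e0 := congrArg (· 0) e
      have e1 := congrArg (· 1) e
      simp only [ev2_zero, ev2_one] at e0 e1
      exact Subtype.ext (Prod.ext (Fin.ext e0) (Fin.ext e1))
    · simp
  · refine totalDegree_finsetSum_le fun p _ => ?_
    rw [deg_le_iff]
    intro m hm
    rw [Finset.mem_singleton.1 (support_monomial_subset hm)]
    exact p.2
  · apply (IsUnit.mul_right_eq_zero ((isUnit_th0 ha0 ha1).pow 3)).1
    have e : theta a 0 ^ 3 * evl a (∑ p : ι, monomial (ev2 p.1.1 p.1.2) (c p)) =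
        ∑ p : ι, iota (c p) * mon a 3 p.1.1 p.1.2 := by
      rw [map_sum, Finset.mul_sum]
      refine Finset.sum_congr rfl fun p _ => ?_
      rw [evl_monomial, ← mon_eq ha0 ha1 p.2]
      simp only [ev2_zero, ev2_one]
      ring
    rw [e]
    refine InV.eq_zero (a := a) (n := 9) (by norm_num)
      (InV.sum _ _ fun p _ => (inV_mon (e := 3) p.2).iota_mul _) fun l v => ?_
    have := congrArg (fun z => (z l).coeff v) hc
    simp only [Finset.sum_apply, Pi.smul_apply, smul_eq_mul, Pi.zero_apply,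
      HahnSeries.coeff_zero, HahnSeries.coeff_sum] at this
    rw [co_sum, ← this]
    refine Finset.sum_congr rfl fun p _ => ?_
    rw [← comp_coeff, comp_iota_mul]

/-- The `Y`-derivative of an equation of the curve does not vanish on the curve. -/
lemma evl_pderiv_ne (ha0 : 0 < a) (ha1 : a < 1 / 3) (g : MvPolynomial (Fin 2) K) (hg : g ≠ 0)
    (hg3 : g.totalDegree ≤ 3) (h0 : evl a g = 0) :
    (pderiv 1 g).totalDegree ≤ 2 ∧ evl a (pderiv 1 g) ≠ 0 := by
  have hd : (pderiv 1 g).totalDegree ≤ 2 := by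
    rw [deg_le_iff]
    intro m hm
    rw [mem_support_iff, coeff_pderiv] at hm
    have := deg_le_iff.1 hg3 _ (mem_support_iff.2 (left_ne_zero_of_mul hm))
    simp at this
    omega
  refine ⟨hd, fun h => hg ?_⟩
  have h1 := deg_two ha0 ha1 _ hd h
  have hs : ∀ m ∈ g.support, m 1 = 0 := by
    intro m hm
    by_contra hne
    have e : m - Finsupp.single 1 1 + Finsupp.single 1 1 = m :=
      fin2_ext (by simp) (by simp; omega)
    have := coeff_pderiv (i := 1) g (m - Finsupp.single 1 1)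
    rw [h1, e, coeff_zero] at this
    rcases mul_eq_zero.1 this.symm with h2 | h2
    · exact mem_support_iff.1 hm h2
    · exact Nat.cast_add_one_ne_zero _ h2
  have hsum := hom_formula ha0 ha1 hg3
  rw [h0, mul_zero] at hsum
  have key := indep g.support (fun m => mon a 3 (m 0) (m 1)) (fun m => (m 0 : ℤ) - m 1)
    (fun m hm m' hm' h => by
      have h1 := hs m hm
      have h2 := hs m' hm'
      simp only at h
      exact fin2_ext (by omega) (by omega))
    (fun m _ => lead_mon ha0 ha1 _ _ _) (fun m => coeff m g) hsum.symm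
  refine MvPolynomial.ext _ _ fun m => ?_
  by_contra hm
  exact hm (key m (mem_support_iff.2 hm))

/-- The equation of the cubic. -/
theorem exists_equation (ha0 : 0 < a) (ha1 : a < 1 / 3) :
    ∃ g : MvPolynomial (Fin 2) K, evl a g = 0 ∧ evl a (pderiv 1 g) ≠ 0 ∧ ∀ f, f ≠ 0 →
      ∃ j h, f = g ^ j * h ∧ 3 * j + h.totalDegree = f.totalDegree ∧ evl a h ≠ 0 := by
  obtain ⟨g, hg, hg3, hφ⟩ := exists_cubic ha0 ha1
  let χ : B →+* K := hmap (LaurentPolynomial.eval₂ (RingHom.id ℂ) 1)
  have hχ : ∀ k, χ (iota k) = k := fun k => by ext v; simp [χ]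
  obtain ⟨g₀, h1, h2, h3, h4⟩ := exists_gen (evl a) χ g hg hg3 hφ (deg_two ha0 ha1)
    ⟨X 0 - C (χ (pt a 0)), fun h => by
      have := deg_two ha0 ha1 _ ((totalDegree_sub_C_le _ _).trans (by simp)) h
      have := congrArg (coeff (Finsupp.single 0 1)) this
      simp [coeff_C, eq_comm] at this, by simp [evl, hχ]⟩
  exact ⟨g₀, h3, (evl_pderiv_ne ha0 ha1 g₀ h1 h2.le h3).2, h4⟩

end Crest.Agent.R259
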