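import Mathlib
import Crest.Prelude.Def_VanishingOrder

/-! # Row 259 (Nagata): reduction of "very general points" to one good tuple over some domain. -/

set_option autoImplicit false

namespace Crest.Agent.R259

open MvPolynomial Crest.AlgGeometry

/-- If a matrix over `P` becomes injective on vectors after a ring map to a domain `D`, some maximal
minor survives.  Recipe: over `F = FractionRing D` the rows `k ↦ ψ (M i k)` span `κ → F` (otherwise a
nonzero functional `c : κ → F` kills all rows; clear denominators with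
`IsLocalization.exist_integer_multiples_of_finite`); extract a basis among the rows
(`exists_linearIndependent'` or `Module.Basis.ofSpan`/`exists_basis`-style), it has `card κ` members,
and `Matrix.linearIndependent_rows_iff_isUnit` gives `det ≠ 0`. -/
theorem exists_minor {P D : Type*} [CommRing P] [CommRing D] [IsDomain D] (ψ : P →+* D)
    {ι κ : Type*} [Fintype κ] [DecidableEq κ] (M : Matrix ι κ P)
    (h : ∀ c : κ → D, (∀ i, ∑ k, ψ (M i k) * c k = 0) → c = 0) :
    ∃ e : κ → ι, ψ (M.submatrix e id).det ≠ 0 := by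
  classical
  let F := FractionRing D
  let f : κ → ι → F := fun k i => algebraMap D F (ψ (M i k))
  have h1 : LinearIndependent D f := by
    rw [Fintype.linearIndependent_iff]
    intro c hc k
    have := h c (fun i => ?_)
    · exact congrFun this k
    · have e := congrFun hc i
      simp only [Finset.sum_apply, Pi.smul_apply, f, Pi.zero_apply] at e
      simp only [Algebra.smul_def, ← map_mul, ← map_sum] at e
      rw [IsFractionRing.to_map_eq_zero_iff] at e
      simpa only [mul_comm] using e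
  have h2 : LinearIndependent F f := (LinearIndependent.iff_fractionRing D F).1 h1
  have h3 := span_flip_eq_top_iff_linearIndependent.2 h2
  obtain ⟨κ', a, -, ha1, ha2⟩ := exists_linearIndependent' F (flip f)
  rw [h3] at ha1
  let b : Module.Basis κ' F (κ → F) := Module.Basis.mk ha2 ha1.ge
  let e : κ ≃ κ' := (Pi.basisFun F κ).indexEquiv b
  refine ⟨a ∘ e, fun h0 => ?_⟩
  have h4 : LinearIndependent F
      (((algebraMap D F).comp ψ).mapMatrix (M.submatrix (a ∘ e) id)).row :=
    ha2.comp e e.injective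
  have h5 := (Matrix.isUnit_iff_isUnit_det _).1 (Matrix.linearIndependent_rows_iff_isUnit.1 h4)
  rw [← RingHom.map_det, RingHom.comp_apply, h0, map_zero] at h5
  exact not_isUnit_zero h5

/-- Countably many nonzero complex polynomials have a common non-zero.  Recipe: reduce to
`σ = Fin n`, induct with `MvPolynomial.finSuccEquiv` (choose the tail avoiding the leading
coefficients; then avoid countably many roots, `ℂ` is uncountable), or use Baire / a measure
argument. -/
theorem exists_avoid {σ : Type*} [Finite σ] (S : Set (MvPolynomial σ ℂ)) (hS : S.Countable)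
    (h0 : ∀ g ∈ S, g ≠ 0) : ∃ x : σ → ℂ, ∀ g ∈ S, eval x g ≠ 0 := by
  classical
  have := Fintype.ofFinite σ
  have hd : Dense (⋂ g ∈ S, {x : σ → ℂ | eval x g ≠ 0}) := by
    refine dense_biInter_of_isOpen (fun g _ => ?_) hS (fun g hg => ?_)
    · exact isOpen_ne_fun (MvPolynomial.continuous_eval g) continuous_const
    · rw [Metric.dense_iff]
      intro x r hr
      by_contra hc
      refine h0 g hg (MvPolynomial.funext_set (fun i => Metric.ball (x i) r)
        (fun i => infinite_of_mem_nhds (x i) (Metric.ball_mem_nhds _ hr)) fun y hy => ?_)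
      by_contra hy0
      rw [map_zero] at hy0
      exact hc ⟨y, by rwa [ball_pi _ hr], hy0⟩
  obtain ⟨x, hx⟩ := hd.nonempty
  exact ⟨x, fun g hg => (Set.mem_iInter₂.1 hx) g hg⟩

/-- the universal matrix entry -/
noncomputable def genM (r : ℕ) (i : Fin r) (β α : Fin 2 →₀ ℕ) : MvPolynomial (Fin r × Fin 2) ℂ :=
  coeff β (aeval (fun j => X j + C (X (i, j)) :
    Fin 2 → MvPolynomial (Fin 2) (MvPolynomial (Fin r × Fin 2) ℂ))
    (monomial α (1 : MvPolynomial (Fin r × Fin 2) ℂ)))

theorem map_genM {R : Type*} [CommRing R] {r : ℕ} (ψ : MvPolynomial (Fin r × Fin 2) ℂ →+* R)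
    (i : Fin r) (β α : Fin 2 →₀ ℕ) :
    ψ (genM r i β α) = coeff β (aeval (fun j => X j + C (ψ (X (i, j))) :
      Fin 2 → MvPolynomial (Fin 2) R) (monomial α (1 : R))) := by
  rw [genM, ← coeff_map]
  congr 1
  rw [aeval_monomial, aeval_monomial]
  simp [Finsupp.prod, map_prod]

theorem vanishes_iff {R : Type*} [CommRing R] (f : MvPolynomial (Fin 2) R) (a : Fin 2 → R)
    (m : ℕ) : VanishesToOrder f a m ↔ ∀ β : Fin 2 →₀ ℕ, β.degree < m →
      coeff β (aeval (fun j => X j + C (a j) : Fin 2 → MvPolynomial (Fin 2) R) f) = 0 := by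
  constructor
  · intro h β hβ
    have := congrArg (coeff β) (h _ hβ)
    simpa [coeff_homogeneousComponent] using this
  · intro h k hk
    ext β
    rw [coeff_homogeneousComponent]
    split_ifs with e
    · exact h β (e ▸ hk)
    · rfl

theorem coeff_sum_monomial {R : Type*} [CommRing R] {κ : Type*} [Fintype κ]
    (v : κ → Fin 2 →₀ ℕ) (hv : Function.Injective v) (c : κ → R) (k : κ) :
    coeff (v k) (∑ k, monomial (v k) (c k)) = c k := by
  classical
  rw [coeff_sum, Finset.sum_eq_single k]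
  · simp
  · intro k' _ hk'
    rw [coeff_monomial, if_neg fun e => hk' (hv e)]
  · simp

theorem coeff_aeval_sum {R : Type*} [CommRing R] {κ : Type*} [Fintype κ] (v : κ → Fin 2 →₀ ℕ)
    (c : κ → R) (a : Fin 2 → R) (β : Fin 2 →₀ ℕ) :
    coeff β (aeval (fun j => X j + C (a j) : Fin 2 → MvPolynomial (Fin 2) R)
      (∑ k, monomial (v k) (c k))) =
    ∑ k, coeff β (aeval (fun j => X j + C (a j) : Fin 2 → MvPolynomial (Fin 2) R)
      (monomial (v k) (1 : R))) * c k := by
  rw [map_sum, coeff_sum]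
  refine Finset.sum_congr rfl fun k _ => ?_
  have : monomial (v k) (c k) = c k • monomial (v k) (1 : R) := by simp [smul_monomial]
  rw [this, map_smul, coeff_smul, smul_eq_mul, mul_comm]

/-- One good tuple over a domain gives a nonzero polynomial condition.  Recipe: `κ` = exponents
`α : Fin 2 →₀ ℕ` of degree `≤ d` (a finite type), `ι = {(i, β) | degree β < m i}`, universal matrix
`M (i,β) α = coeff β (aeval (fun j => X j + C (X (i,j))) (monomial α 1))` over
`MvPolynomial (Fin r × Fin 2) ℂ`; for every ring hom `ψ` to a ring `R`, with `p i j = ψ (X (i,j))`,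
`f = ∑ α, monomial α (c α)` vanishes to order `m i` at `p i` for all `i` iff
`∑ α, ψ (M (i,β) α) * c α = 0` for all `(i,β)` (`coeff_homogeneousComponent`, `coeff_map`, `map_aeval`).
Use `exists_minor` with `ψ = eval₂Hom φ (fun ij => p ij.1 ij.2)` and
`Matrix.eq_zero_of_mulVec_eq_zero` over `ℂ`. -/
theorem exists_condition {D : Type*} [CommRing D] [IsDomain D] (φ : ℂ →+* D) (r d : ℕ)
    (m : Fin r → ℕ) (p : Fin r → Fin 2 → D)
    (h : ∀ f : MvPolynomial (Fin 2) D, f.totalDegree ≤ d →
      (∀ i, VanishesToOrder f (p i) (m i)) → f = 0) :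
    ∃ g : MvPolynomial (Fin r × Fin 2) ℂ, g ≠ 0 ∧ ∀ q : Fin r → Fin 2 → ℂ,
      eval (fun ij : Fin r × Fin 2 => q ij.1 ij.2) g ≠ 0 →
      ∀ f : MvPolynomial (Fin 2) ℂ, f.totalDegree ≤ d →
        (∀ i, VanishesToOrder f (q i) (m i)) → f = 0 := by
  classical
  let κ := {α : Fin 2 →₀ ℕ // α.degree ≤ d}
  have : Finite κ := (Finsupp.finite_of_degree_le d).to_subtype
  have : Fintype κ := Fintype.ofFinite κ
  let ι := {x : Fin r × (Fin 2 →₀ ℕ) // x.2.degree < m x.1}
  let M : Matrix ι κ (MvPolynomial (Fin r × Fin 2) ℂ) := fun x α => genM r x.1.1 x.1.2 α.1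
  let ψ : MvPolynomial (Fin r × Fin 2) ℂ →+* D := eval₂Hom φ (fun ij => p ij.1 ij.2)
  obtain ⟨e, he⟩ := exists_minor ψ M (by
    intro c hM
    have h0 := h (∑ k : κ, monomial k.1 (c k)) ?_ ?_
    · funext k
      rw [← coeff_sum_monomial Subtype.val Subtype.val_injective c k, h0]; rfl
    · exact totalDegree_finsetSum_le fun k _ => (totalDegree_monomial_le _ _).trans k.2
    · intro i
      rw [vanishes_iff]
      intro β hβ
      rw [coeff_aeval_sum, ← hM ⟨(i, β), hβ⟩]
      refine Finset.sum_congr rfl fun k _ => ?_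
      simp only [M, map_genM, ψ, eval₂Hom_X'])
  refine ⟨(M.submatrix e id).det, fun h0 => he (by rw [h0, map_zero]), fun q hq f hf hv => ?_⟩
  have hfe : f = ∑ k : κ, monomial k.1 (coeff k.1 f) := by
    ext β
    by_cases hβ : β.degree ≤ d
    · exact (coeff_sum_monomial Subtype.val Subtype.val_injective
        (fun k : κ => coeff k.1 f) ⟨β, hβ⟩).symm
    · rw [coeff_sum, Finset.sum_eq_zero]
      · by_contra hne
        exact hβ ((le_totalDegree (mem_support_iff.2 hne)).trans hf)
      · intro k _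
        rw [coeff_monomial, if_neg fun e : k.1 = β => hβ (e ▸ k.2)]
  rw [RingHom.map_det] at hq
  have h1 := Matrix.eq_zero_of_mulVec_eq_zero hq (v := fun k : κ => coeff k.1 f) (by
    funext k
    have h2 := (vanishes_iff _ _ _).1 (hv (e k).1.1) (e k).1.2 (e k).2
    rw [hfe, coeff_aeval_sum] at h2
    rw [Pi.zero_apply, ← h2]
    simp only [Matrix.mulVec, dotProduct, RingHom.mapMatrix_apply, Matrix.map_apply,
      Matrix.submatrix_apply, id, M, map_genM, eval_X])
  rw [hfe]
  refine Finset.sum_eq_zero fun k _ => ?_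
  rw [congrFun h1 k]; simp

/-- The reduction.  `S` = range of the chosen conditions over the countable type of bad `(d, m)`. -/
theorem generic_reduction {D : Type*} [CommRing D] [IsDomain D] (φ : ℂ →+* D) (r : ℕ)
    (Bad : ℕ → (Fin r → ℕ) → Prop)
    (h : ∀ d m, Bad d m → ∃ p : Fin r → Fin 2 → D, ∀ f : MvPolynomial (Fin 2) D,
      f.totalDegree ≤ d → (∀ i, VanishesToOrder f (p i) (m i)) → f = 0) :
    ∃ S : Set (MvPolynomial (Fin r × Fin 2) ℂ),
      S.Countable ∧ (∀ g ∈ S, g ≠ 0) ∧
      (∃ p : Fin r → Fin 2 → ℂ, ∀ g ∈ S,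
        eval (fun ij : Fin r × Fin 2 => p ij.1 ij.2) g ≠ 0) ∧
      ∀ p : Fin r → Fin 2 → ℂ,
        (∀ g ∈ S, eval (fun ij : Fin r × Fin 2 => p ij.1 ij.2) g ≠ 0) →
        ∀ (d : ℕ) (f : MvPolynomial (Fin 2) ℂ) (m : Fin r → ℕ),
          f ≠ 0 → f.totalDegree ≤ d → (∀ i, VanishesToOrder f (p i) (m i)) → ¬ Bad d m := by
  have h1 : ∀ x : {x : ℕ × (Fin r → ℕ) // Bad x.1 x.2},
      ∃ g : MvPolynomial (Fin r × Fin 2) ℂ, g ≠ 0 ∧ ∀ q : Fin r → Fin 2 → ℂ,
      eval (fun ij : Fin r × Fin 2 => q ij.1 ij.2) g ≠ 0 →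
      ∀ f : MvPolynomial (Fin 2) ℂ, f.totalDegree ≤ x.1.1 →
        (∀ i, VanishesToOrder f (q i) (x.1.2 i)) → f = 0 := by
    intro x
    obtain ⟨p, hp⟩ := h _ _ x.2
    exact exists_condition φ r _ _ p hp
  choose G hG0 hG using h1
  have hS : (Set.range G).Countable := Set.countable_range G
  have h0 : ∀ g ∈ Set.range G, g ≠ 0 := by rintro _ ⟨x, rfl⟩; exact hG0 x
  refine ⟨Set.range G, hS, h0, ?_, ?_⟩
  · obtain ⟨x, hx⟩ := exists_avoid _ hS h0
    exact ⟨fun i j => x (i, j), hx⟩
  · intro p hp d f m hf hd hv hB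
    exact hf (hG ⟨(d, m), hB⟩ p (hp _ ⟨_, rfl⟩) f hd hv)

end Crest.Agent.R259
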