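import Crest.Agent.R259.Cubic
import Crest.Agent.R259.Cone
import Crest.Agent.R259.Count
import Crest.Agent.R259.Generic

/-! # Row 259 (Nagata): the good tuple of points over `K[ε]`. -/

set_option autoImplicit false

namespace Crest.Agent.R259

open MvPolynomial Crest.AlgGeometry

/-- Enough points where a nonzero Laurent polynomial does not vanish. -/
lemma exists_points (ρ : L) (hρ : ρ ≠ 0) (r : ℕ) :
    ∃ z : Fin r → ℂˣ, Function.Injective z ∧ ∀ i, IsUnit (phi (z i) ρ) := by
  classical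
  have hinf : Infinite ℂˣ := Infinite.of_injective
    (fun n : ℕ => Units.mk0 ((n : ℂ) + 1) (Nat.cast_add_one_ne_zero n)) fun n n' h => by
      simpa using h
  have hfin : {z : ℂˣ | ¬ IsUnit (phi z ρ)}.Finite := by
    by_contra hinf'
    obtain ⟨M, hM⟩ : ∃ M : ℕ, ∀ l ∈ ρ.coeff.support, l.natAbs ≤ M :=
      ⟨ρ.coeff.support.sup Int.natAbs, fun l hl => Finset.le_sup (f := Int.natAbs) hl⟩
    let e := Set.Infinite.natEmbedding _ hinf'
    have := zeros_lt (ι := Fin (2 * M + 1)) ρ hρ (-M) (2 * M + 1) (fun l hl => by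
        have := hM l (Finsupp.mem_support_iff.2 hl)
        push_cast
        omega)
      (fun i => (e i).1) (fun i j h => Fin.ext (e.injective (Subtype.ext h))) (fun _ => 1)
      (fun i => by
        have h1 : ¬ IsUnit (phi (e i).1 ρ) := (e i).2
        rw [PowerSeries.isUnit_iff_constantCoeff, isUnit_iff_ne_zero, not_not] at h1
        rw [pow_one, PowerSeries.X_dvd_iff]
        exact h1)
    simp at this
  let e := Set.Infinite.natEmbedding _ hfin.infinite_compl
  exact ⟨fun i => (e i).1, fun i j h => Fin.ext (e.injective (Subtype.ext h)),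
    fun i => not_not.1 (e i).2⟩

/-- The local parameter `t`. -/
noncomputable def tA : A := HahnSeries.C PowerSeries.X

/-- Setting `t = 0`. -/
noncomputable def piA : A →+* K := hmap PowerSeries.constantCoeff

lemma tA_dvd (z : ℂˣ) (s : A) : tA ∣ s - hmap (phi z) (iota (piA s)) := by
  let sf : ZeroHom (PowerSeries ℂ) (PowerSeries ℂ) :=
    ⟨fun φ => PowerSeries.mk fun n => PowerSeries.coeff (n + 1) φ, by ext; simp⟩
  refine ⟨s.map sf, ?_⟩
  ext1
  funext v
  rw [tA, HahnSeries.C_apply, HahnSeries.coeff_single_zero_mul, HahnSeries.coeff_sub, hmap_coeff,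
    iota_coeff, phi, LaurentPolynomial.eval₂_C]
  exact PowerSeries.sub_const_eq_X_mul_shift _

lemma coeff_dvd_of_tA {m b : ℕ} {s : A} (h : tA ^ m ∣ tA ^ b * s) (v : ℝ) :
    (PowerSeries.X : PowerSeries ℂ) ^ m ∣ PowerSeries.X ^ b * s.coeff v := by
  obtain ⟨s', hs'⟩ := h
  have := congrArg (fun y : A => y.coeff v) hs'
  rw [tA, ← map_pow, ← map_pow, HahnSeries.C_apply, HahnSeries.C_apply] at this
  simp only [HahnSeries.coeff_single_zero_mul] at this
  exact ⟨_, this⟩

/-- The purely algebraic extraction of the `V^b`-coefficient. -/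
lemma extract {B A : Type*} [CommRing B] [CommRing A] (Φ : B →+* A) (t η : A) (θ D ζ : B)
    (hη : Φ (θ ^ 3 * D) * η = Φ ζ) (d m : ℕ) (J : Finset ℕ) (hJ : ∀ j ∈ J, 3 * j ≤ d) (H : ℕ → B)
    (h : (Polynomial.C t) ^ m ∣ ∑ j ∈ J, (Polynomial.C.comp Φ) (H j) *
      ((Polynomial.C.comp Φ) D * (Polynomial.C η * (1 + Polynomial.C t * Polynomial.X))) ^ j)
    (b : ℕ) : t ^ m ∣ t ^ b * Φ (∑ j ∈ J, j.choose b • (θ ^ (d - 3 * j) * H j * ζ ^ j)) := by
  have h1 := h.mul_left (Polynomial.C (Φ (θ ^ d)))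
  rw [← map_pow, Polynomial.C_dvd_iff_dvd_coeff] at h1
  convert h1 b using 1
  rw [Finset.mul_sum, Polynomial.finsetSum_coeff, map_sum, Finset.mul_sum]
  refine Finset.sum_congr rfl fun j hj => ?_
  obtain ⟨n, rfl⟩ := Nat.exists_eq_add_of_le (hJ j hj)
  have e : Polynomial.C (Φ (θ ^ (3 * j + n))) * ((Polynomial.C.comp Φ) (H j) *
      ((Polynomial.C.comp Φ) D * (Polynomial.C η * (1 + Polynomial.C t * Polynomial.X))) ^ j) =
      Polynomial.C (Φ (θ ^ n * H j * ζ ^ j)) *
        ((1 + Polynomial.X) ^ j).comp (Polynomial.C t * Polynomial.X) := by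
    simp only [RingHom.comp_apply, map_mul, map_pow, ← hη, Polynomial.pow_comp, Polynomial.add_comp,
      Polynomial.one_comp, Polynomial.X_comp, mul_pow]
    ring
  rw [e, Polynomial.coeff_C_mul, Polynomial.comp_C_mul_X_coeff, Polynomial.coeff_one_add_X_pow,
    Nat.add_sub_cancel_left, map_nsmul, nsmul_eq_mul]
  ring

/-- Vanishing at the point gives divisibility by `t^m` at the nearby point. -/
lemma local_step {K B A : Type*} [CommRing K] [CommRing B] [CommRing A] (ι : K →+* B) (Φ : B →+* A)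
    (π : A →+* K) (t η : A) (ht : ∀ s, t ∣ s - Φ (ι (π s))) (x : Fin 2 → B)
    (f : MvPolynomial (Fin 2) (Polynomial K)) (m : ℕ)
    (hv : VanishesToOrder f ![Polynomial.C (π (Φ (x 0))),
      Polynomial.C (π (Φ (x 1))) + Polynomial.X * Polynomial.C (π η)] m) (ν : ℕ) :
    (Polynomial.C t) ^ m ∣ (eval₂Hom (Polynomial.mapRingHom ((Polynomial.C.comp Φ).comp ι))
      ![Polynomial.C ((Polynomial.C.comp Φ) (x 0)), Polynomial.C ((Polynomial.C.comp Φ) (x 1)) +
        Polynomial.X * Polynomial.C (Polynomial.C η * (1 + Polynomial.C t * Polynomial.X))] f).coeff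
        ν := by
  have h1 := dvd_of_vanish (Polynomial.mapRingHom ((Polynomial.C.comp Φ).comp ι)) _
    ![Polynomial.C ((Polynomial.C.comp Φ) (x 0)), Polynomial.C ((Polynomial.C.comp Φ) (x 1)) +
      Polynomial.X * Polynomial.C (Polynomial.C η * (1 + Polynomial.C t * Polynomial.X))]
    (Polynomial.C (Polynomial.C t)) (fun j => ?_) f m hv
  · rw [← map_pow, Polynomial.C_dvd_iff_dvd_coeff] at h1
    exact h1 ν
  · obtain ⟨q0, hq0⟩ := ht (Φ (x 0))
    obtain ⟨q1, hq1⟩ := ht (Φ (x 1))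
    obtain ⟨q2, hq2⟩ := ht η
    fin_cases j
    · refine ⟨Polynomial.C (Polynomial.C q0), ?_⟩
      simp only [Fin.zero_eta, Matrix.cons_val_zero, Polynomial.coe_mapRingHom, Polynomial.map_C,
        RingHom.comp_apply, ← map_sub, ← map_mul, hq0]
    · refine ⟨Polynomial.C (Polynomial.C q1) + Polynomial.X * Polynomial.C
        (Polynomial.C q2 + Polynomial.C η * Polynomial.X), ?_⟩
      have e1 := congrArg (fun y => Polynomial.C (Polynomial.C y)) hq1
      have e2 := congrArg (fun y => Polynomial.C (Polynomial.C y)) hq2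
      simp only [map_sub, map_mul] at e1 e2
      simp only [Fin.mk_one, Matrix.cons_val_one, Matrix.cons_val_fin_one,
        Polynomial.coe_mapRingHom, Polynomial.map_C, Polynomial.map_add, Polynomial.map_mul,
        Polynomial.map_X, RingHom.comp_apply, map_mul, map_add, map_one]
      linear_combination e1 + Polynomial.X * e2

theorem good_tuple (r : ℕ) (hr : 10 ≤ r) (d : ℕ) (hd : 1 ≤ d) (m : Fin r → ℕ)
    (hm : (d : ℝ) * Real.sqrt r ≤ ∑ i, (m i : ℝ)) :
    ∃ p : Fin r → Fin 2 → Polynomial K, ∀ f : MvPolynomial (Fin 2) (Polynomial K),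
      f.totalDegree ≤ d → (∀ i, VanishesToOrder f (p i) (m i)) → f = 0 := by
  classical
  obtain ⟨a, κ, ha0, ha1, hcount⟩ := count r hr d hd m hm
  obtain ⟨g, hg0, hg1, hfac⟩ := exists_equation ha0 ha1
  have hθ := isUnit_th0 ha0 ha1
  set u : B := theta a 0 ^ 3 * evl a (pderiv 1 g) with hu
  have hu0 : u ≠ 0 := mul_ne_zero (hθ.pow 3).ne_zero hg1
  obtain ⟨z, hz, hzu⟩ := exists_points (u.coeff u.order)
    (fun h => hu0 (HahnSeries.coeff_order_eq_zero.1 h)) r
  have hΦu : ∀ i, IsUnit (hmap (phi (z i)) u) := fun i =>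
    ((ord_order u).hmap (phi (z i))).isUnit (hzu i)
  set ζ : B := HahnSeries.C (LaurentPolynomial.T κ) with hζ
  have hη : ∀ i, ∃ η : A, hmap (phi (z i)) u * η = hmap (phi (z i)) ζ := fun i => (hΦu i).dvd.imp
    fun _ h => h.symm
  choose η hη using hη
  refine ⟨fun i => ![Polynomial.C (piA (hmap (phi (z i)) (pt a 0))),
    Polynomial.C (piA (hmap (phi (z i)) (pt a 1))) + Polynomial.X * Polynomial.C (piA (η i))],
    fun f hfd hv => ?_⟩
  by_contra hf
  obtain ⟨ν, J, h, hJne, hJ, hcone⟩ := cone (D := Polynomial A) iota (pt a) g hg0 hfac f hf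
  set s : ℕ → B := fun j => theta a 0 ^ (d - 3 * j) * evl a (h j) with hs
  have hJd : ∀ j ∈ J, 3 * j ≤ d := fun j hj => by have := (hJ j hj).1; omega
  have hsV : ∀ j ∈ J, InV a (3 * (d - 3 * j)) (s j) := fun j hj =>
    inV_evl ha0 ha1 (by have := (hJ j hj).1; omega)
  obtain ⟨j₀, hj₀, hmin⟩ := Finset.exists_min_image J (fun j => (s j).order) hJne
  have hord : ∀ j ∈ J, Ord (s j₀).order (s j) := fun j hj => (ord_order _).mono (hmin j hj)
  have key := hcount J (fun j => (s j).coeff (s j₀).order) hJd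
    (fun j hj l hl => (hsV j hj).win (hord j hj) hl) z hz (fun i b => ?_) j₀ hj₀
  · exact mul_ne_zero (hθ.pow _).ne_zero (hJ j₀ hj₀).2 (HahnSeries.coeff_order_eq_zero.1 key)
  · have h2 := local_step iota (hmap (phi (z i))) piA tA (η i) (tA_dvd (z i)) (pt a) f (m i)
      (hv i) ν
    rw [hcone] at h2
    have h3 := coeff_dvd_of_tA (extract (hmap (phi (z i))) tA (η i) (theta a 0) _ ζ (hη i) d (m i)
      J hJd (fun j => evl a (h j)) h2 b) (s j₀).order
    rw [hmap_coeff, HahnSeries.coeff_sum] at h3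
    convert h3 using 3
    refine Finset.sum_congr rfl fun j _ => ?_
    rw [HahnSeries.coeff_nsmul, Pi.smul_apply, hζ, ← map_pow, HahnSeries.C_apply,
      HahnSeries.coeff_mul_single_zero, LaurentPolynomial.T_pow, mul_comm κ]

end Crest.Agent.R259
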