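import Crest.Agent.R259.VSp

/-! # Row 259 (Nagata): the three theta functions of degree three. -/

set_option autoImplicit false

namespace Crest.Agent.R259

open LaurentPolynomial

/-- The exponent of `T` attached to `ζ^l`. -/
noncomputable def ex (a : ℝ) (l : ℤ) : ℝ := (l : ℝ) ^ 2 / 3 + a * l

lemma finite_ex (a x : ℝ) : {l : ℤ | ex a l ≤ x}.Finite := by
  obtain ⟨N, hN⟩ := exists_nat_ge (3 * |a| + 3 * |x| + 3)
  refine (Set.finite_Icc (-(N : ℤ)) N).subset fun l hl => ?_
  simp only [Set.mem_ofPred_eq, ex] at hl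
  have ha := le_abs_self a
  have ha' := neg_abs_le a
  have hx := le_abs_self x
  have h0 := abs_nonneg a
  have h1 := abs_nonneg x
  constructor
  · by_contra h
    have : (l : ℝ) < -(N : ℝ) := by exact_mod_cast not_le.1 h
    nlinarith
  · by_contra h
    have : (N : ℝ) < l := by exact_mod_cast not_le.1 h
    nlinarith

open Classical in
/-- `θ_c = ∑_{l ≡ c (3)} T^(l²/3 + a l) ζ^l`. -/
noncomputable def theta (a : ℝ) (c : ℤ) : B where
  coeff v := AddMonoidAlgebra.ofCoeff (Finsupp.ofSupportFinite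
    (fun l => if l % 3 = c ∧ ex a l = v then (1 : ℂ) else 0)
    ((finite_ex a v).subset fun l hl => by
      simp only [Function.mem_support, ne_eq, ite_eq_right_iff, not_forall] at hl
      exact hl.1.2.le))
  isPWO_support' := by
    refine Set.IsPWO.mono (t := Set.range (ex a)) ?_ ?_
    · rw [Set.isPWO_iff_isWF, Set.isWF_iff_no_descending_seq]
      intro f hf hall
      choose g hg using hall
      have hinj : Function.Injective g := fun i j h => hf.injective (by rw [← hg, ← hg, h])
      refine Set.infinite_of_injective_forall_mem hinj (fun i => ?_) (finite_ex a (f 0))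
      simp only [Set.mem_ofPred_eq, hg]
      exact hf.antitone (Nat.zero_le i)
    · intro v hv
      by_contra h
      apply hv
      ext l
      simp only [Finsupp.ofSupportFinite_coe, AddMonoidAlgebra.coeff_zero, Finsupp.coe_zero,
        Pi.zero_apply, ite_eq_right_iff]
      exact fun h' => absurd ⟨l, h'.2⟩ h

open Classical in
lemma co_theta (a : ℝ) (c : ℤ) (x : ℝ × ℤ) :
    co (theta a c) x = if x.2 % 3 = c ∧ ex a x.2 = x.1 then 1 else 0 := rfl

lemma inV_theta (a : ℝ) (c : ℤ) : InV a 3 (theta a c) := by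
  intro x
  rw [co_theta, co_theta, sh_apply]
  refine if_congr (and_congr ?_ ?_) rfl rfl
  · simp
  · simp only [ex]
    push_cast
    constructor <;> intro h <;> linarith

lemma ord_theta_sub (a : ℝ) (c : ℤ) (F : Finset ℤ) (w : ℝ) (hF : ∀ l ∈ F, l % 3 = c)
    (h : ∀ l, l % 3 = c → l ∉ F → w ≤ ex a l) :
    Ord w (theta a c - ∑ l ∈ F, HahnSeries.single (ex a l) (T l)) := by
  classical
  intro v hv
  ext l
  have e : ((theta a c - ∑ l ∈ F, HahnSeries.single (ex a l) (T l : L)).coeff v).coeff l =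
      co (theta a c) (v, l) - ∑ l' ∈ F, co (HahnSeries.single (ex a l') (T l' : L)) (v, l) := by
    rw [← co_sum]; simp [co]
  have e2 : ∀ l' : ℤ, co (HahnSeries.single (ex a l') (T l' : L)) (v, l) =
      if l' = l ∧ ex a l = v then 1 else 0 := by
    intro l'
    simp only [co, HahnSeries.coeff_single]
    by_cases h1 : l' = l
    · subst h1
      by_cases h2 : ex a l' = v
      · simp [h2]
      · simp [h2, Ne.symm h2]
    · split_ifs with h2 h3 h3
      · exact absurd h3.1 h1
      · simp [h1]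
      · exact absurd h3.1 h1
      · simp
  rw [e, co_theta]
  simp only [e2, AddMonoidAlgebra.coeff_zero, Finsupp.coe_zero, Pi.zero_apply]
  by_cases hl : l ∈ F
  · rw [Finset.sum_eq_single l (fun b _ hb => by simp [hb]) (fun h => absurd hl h)]
    simp [hF l hl]
  · rw [Finset.sum_eq_zero (fun b hb => by
      have : b ≠ l := fun e => hl (e ▸ hb)
      simp [this]), sub_zero, if_neg]
    rintro ⟨h1, h2⟩
    have := h l h1 hl
    linarith

variable {a : ℝ}

lemma ord_th0 (ha0 : 0 < a) (ha1 : a < 1 / 3) : Ord 2 (theta a 0 - 1) := by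
  have := ord_theta_sub a 0 {0} 2 (by simp) (fun l h1 h2 => by
    have h3 : 3 ≤ l ∨ l ≤ -3 := by simp at h2; omega
    simp only [ex]
    rcases h3 with h3 | h3
    · have : (3 : ℝ) ≤ l := by exact_mod_cast h3
      nlinarith
    · have : (l : ℝ) ≤ -3 := by exact_mod_cast h3
      nlinarith)
  simpa [ex, HahnSeries.single_zero_one] using this

lemma ord_th1 (ha0 : 0 < a) (ha1 : a < 1 / 3) :
    Ord 5 (theta a 1 - (HahnSeries.single (1 / 3 + a) (T 1) +
      HahnSeries.single (4 / 3 - 2 * a) (T (-2)))) := by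
  have := ord_theta_sub a 1 {1, -2} 5 (by simp) (fun l h1 h2 => by
    have h3 : 4 ≤ l ∨ l ≤ -5 := by simp at h2; omega
    simp only [ex]
    rcases h3 with h3 | h3
    · have : (4 : ℝ) ≤ l := by exact_mod_cast h3
      nlinarith
    · have : (l : ℝ) ≤ -5 := by exact_mod_cast h3
      nlinarith)
  rw [Finset.sum_pair (by norm_num)] at this
  have e1 : ex a 1 = 1 / 3 + a := by simp [ex]
  have e2 : ex a (-2) = 4 / 3 - 2 * a := by simp only [ex]; push_cast; ring
  rwa [e1, e2] at this

lemma ord_th2 (ha0 : 0 < a) (ha1 : a < 1 / 3) :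
    Ord (4 / 3 + 2 * a) (theta a 2 - HahnSeries.single (1 / 3 - a) (T (-1))) := by
  have := ord_theta_sub a 2 {-1} (4 / 3 + 2 * a) (by simp) (fun l h1 h2 => by
    have h3 : 2 ≤ l ∨ l ≤ -4 := by simp at h2; omega
    simp only [ex]
    rcases h3 with h3 | h3
    · have : (2 : ℝ) ≤ l := by exact_mod_cast h3
      nlinarith
    · have : (l : ℝ) ≤ -4 := by exact_mod_cast h3
      nlinarith)
  rw [Finset.sum_singleton] at this
  have e1 : ex a (-1) = 1 / 3 - a := by simp only [ex]; push_cast; ring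
  rwa [e1] at this

lemma lead_th0 (ha0 : 0 < a) (ha1 : a < 1 / 3) : Lead (theta a 0) 0 0 :=
  lead_of_ord (w := 2) (by norm_num)
    (by simpa [HahnSeries.single_zero_one] using ord_th0 ha0 ha1)

lemma lead_th1 (ha0 : 0 < a) (ha1 : a < 1 / 3) : Lead (theta a 1) (1 / 3 + a) 1 := by
  refine lead_of_ord (w := 4 / 3 - 2 * a) (by linarith) ?_
  have := ((ord_th1 ha0 ha1).mono (w' := 4 / 3 - 2 * a) (by linarith)).add
    (ord_single (4 / 3 - 2 * a) (T (-2)))
  convert this using 1
  ring

lemma lead_th2 (ha0 : 0 < a) (ha1 : a < 1 / 3) : Lead (theta a 2) (1 / 3 - a) (-1) :=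
  lead_of_ord (by linarith) (ord_th2 ha0 ha1)

/-- The constant `T^(2/3)`. -/
noncomputable def tau : K := HahnSeries.single (2 / 3) 1

lemma iota_tau : iota tau = HahnSeries.single (2 / 3) 1 := by
  ext v l
  simp only [tau, iota_coeff, HahnSeries.coeff_single]
  split_ifs <;> simp

lemma lead_psi (ha0 : 0 < a) (ha1 : a < 1 / 3) :
    Lead (theta a 1 * theta a 2 - iota tau * theta a 0 ^ 2) (5 / 3 - 3 * a) (-3) := by
  refine lead_of_ord (w := 5 / 3) (by linarith) ?_
  set m1 : B := HahnSeries.single (1 / 3 + a) (T 1) with hm1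
  set m1' : B := HahnSeries.single (4 / 3 - 2 * a) (T (-2)) with hm1'
  set m2 : B := HahnSeries.single (1 / 3 - a) (T (-1)) with hm2
  have e1 : iota tau = m1 * m2 := by
    rw [iota_tau, hm1, hm2, HahnSeries.single_mul_single, ← T_add]
    congr 1
    ring
  have e2 : (HahnSeries.single (5 / 3 - 3 * a) (T (-3)) : B) = m1' * m2 := by
    rw [hm1', hm2, HahnSeries.single_mul_single, ← T_add]
    congr 1
    ring
  have h1 := ((ord_th1 ha0 ha1).mul (ord_single (1 / 3 - a) (T (-1)))).mono
    (w' := 5 / 3) (by linarith)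
  have h2 := ((lead_th1 ha0 ha1).1.mul (ord_th2 ha0 ha1)).mono (w' := 5 / 3) (by linarith)
  have h3 := (((ord_single (2 / 3) (1 : L)).mul (ord_th0 ha0 ha1)).mul
    ((lead_th0 ha0 ha1).1.add lead_one.1)).mono (w' := 5 / 3) (by linarith)
  rw [← iota_tau] at h3
  convert (h1.add h2).sub h3 using 1
  rw [e2, e1]
  ring

lemma isUnit_th0 (ha0 : 0 < a) (ha1 : a < 1 / 3) : IsUnit (theta a 0) :=
  (lead_th0 ha0 ha1).1.isUnit (by rw [(lead_th0 ha0 ha1).2]; simp)

end Crest.Agent.R259
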