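import Crest.Agent.R259.Basic

/-! # Row 259 (Nagata): quasi-periodic series, orders and leading terms. -/

set_option autoImplicit false

namespace Crest.Agent.R259

open LaurentPolynomial

/-- Constants. -/
noncomputable def iota : K →+* B := hmap LaurentPolynomial.C

@[simp] lemma iota_coeff (k : K) (v : ℝ) : (iota k).coeff v = LaurentPolynomial.C (k.coeff v) := rfl

/-- The coefficient of `T^v ζ^l`. -/
noncomputable def co (s : B) (x : ℝ × ℤ) : ℂ := (s.coeff x.1).coeff x.2

lemma co_mul (s t : B) (x : ℝ × ℤ) : co (s * t) x = ∑ᶠ y, co s y * co t (x - y) := by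
  classical
  set A := Finset.antidiagonal s.isPWO_support t.isPWO_support x.1 with hA
  set F : Finset (ℝ × ℤ) :=
    A.biUnion (fun ij => (s.coeff ij.1).coeff.support.image (fun k => (ij.1, k))) with hF
  rw [finsum_eq_sum_of_support_subset (s := F)]
  · rw [hF, Finset.sum_biUnion]
    · unfold co
      rw [HahnSeries.coeff_mul, AddMonoidAlgebra.coeff_sum, Finsupp.finsetSum_apply]
      refine Finset.sum_congr rfl fun ij hij => ?_
      rw [Finset.sum_image (fun a _ b _ h => by simpa using h),
        AddMonoidAlgebra.coeff_mul_apply_left, Finsupp.sum]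
      refine Finset.sum_congr rfl fun k _ => ?_
      have h3 := (Finset.mem_antidiagonal.1 hij).2.2
      have : x.1 - ij.1 = ij.2 := by linarith
      simp only [Prod.fst_sub, Prod.snd_sub, this]
      congr 2
      ring
    · intro ij hij ij' hij' hne
      simp only [Function.onFun]
      rw [Finset.disjoint_left]
      intro y hy hy'
      simp only [Finset.mem_image] at hy hy'
      obtain ⟨k, -, rfl⟩ := hy
      obtain ⟨k', -, h⟩ := hy'
      have h1 : ij'.1 = ij.1 := by simpa using congrArg Prod.fst h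
      have h3 := (Finset.mem_antidiagonal.1 hij).2.2
      have h4 := (Finset.mem_antidiagonal.1 hij').2.2
      exact hne (Prod.ext h1.symm (by linarith))
  · intro y hy
    rw [Function.mem_support] at hy
    have h1 : co s y ≠ 0 := left_ne_zero_of_mul hy
    have h2 : co t (x - y) ≠ 0 := right_ne_zero_of_mul hy
    simp only [hF, Finset.coe_biUnion, Set.mem_iUnion, Finset.mem_coe, Finset.mem_image]
    refine ⟨(y.1, x.1 - y.1), ?_, y.2, by simpa [co] using h1, rfl⟩
    rw [hA, Finset.mem_antidiagonal]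
    refine ⟨?_, ?_, by simp⟩
    · intro h; apply h1; simp [co, h]
    · intro h; apply h2
      simp only [co, Prod.fst_sub]
      simp only at h
      rw [h]; simp

/-- The shift `ζ ↦ T² ζ` with the automorphy factor of degree `n`. -/
def sh (a : ℝ) (n : ℕ) : ℝ × ℤ ≃ ℝ × ℤ where
  toFun x := (x.1 + 2 * x.2 + n + a * n, x.2 + n)
  invFun x := (x.1 - 2 * x.2 + n - a * n, x.2 - n)
  left_inv x := by ext <;> simp; ring
  right_inv x := by ext <;> simp; ring

lemma sh_apply (a : ℝ) (n : ℕ) (x : ℝ × ℤ) :
    sh a n x = (x.1 + 2 * x.2 + n + a * n, x.2 + n) := rfl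

lemma sh_symm_apply (a : ℝ) (n : ℕ) (x : ℝ × ℤ) :
    (sh a n).symm x = (x.1 - 2 * x.2 + n - a * n, x.2 - n) := rfl

/-- Theta functions of degree `n`. -/
def InV (a : ℝ) (n : ℕ) (s : B) : Prop := ∀ x, co s (sh a n x) = co s x

variable {a : ℝ}

lemma InV.mul {n n' : ℕ} {s t : B} (hs : InV a n s) (ht : InV a n' t) :
    InV a (n + n') (s * t) := by
  intro x
  rw [co_mul, co_mul, ← finsum_comp_equiv (sh a n)]
  refine finsum_congr fun y => ?_
  have : sh a (n + n') x - sh a n y = sh a n' (x - y) := by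
    simp only [sh_apply]
    ext
    · simp; ring
    · simp; ring
  rw [this, hs, ht]

lemma inV_iota (k : K) : InV a 0 (iota k) := by
  intro x
  simp only [co, sh_apply, iota_coeff, C_apply]
  by_cases h : x.2 = 0
  · simp [h]
  · simp [h]

lemma inV_one : InV a 0 1 := by simpa using inV_iota (a := a) 1

lemma InV.pow {n : ℕ} {s : B} (hs : InV a n s) (k : ℕ) : InV a (n * k) (s ^ k) := by
  induction k with
  | zero => simpa using inV_one
  | succ k ih => rw [pow_succ, Nat.mul_succ]; exact ih.mul hs

lemma co_sum {ι : Type*} (S : Finset ι) (s : ι → B) (x : ℝ × ℤ) :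
    co (∑ i ∈ S, s i) x = ∑ i ∈ S, co (s i) x := by
  simp only [co, HahnSeries.coeff_sum, AddMonoidAlgebra.coeff_sum, Finsupp.finsetSum_apply]

lemma InV.sum {ι : Type*} {n : ℕ} (S : Finset ι) (s : ι → B) (h : ∀ i ∈ S, InV a n (s i)) :
    InV a n (∑ i ∈ S, s i) := by
  intro x
  rw [co_sum, co_sum]
  exact Finset.sum_congr rfl fun i hi => h i hi x

lemma InV.iota_mul {n : ℕ} {s : B} (hs : InV a n s) (k : K) : InV a n (iota k * s) := by
  simpa using (inV_iota k).mul hs

/-- All exponents are `≥ w`. -/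
def Ord {R : Type*} [Zero R] (w : ℝ) (s : HahnSeries ℝ R) : Prop := ∀ v < w, s.coeff v = 0

/-- The leading coefficient of a theta function lives in the window. -/
lemma InV.win {n : ℕ} {s : B} (hs : InV a n s) {v : ℝ} (hv : Ord v s) {l : ℤ}
    (hl : (s.coeff v).coeff l ≠ 0) : Win a n l := by
  have h1 : co s (sh a n (v, l)) ≠ 0 := by rw [hs]; exact hl
  have h2 : co s ((sh a n).symm (v, l)) ≠ 0 := by
    rw [← hs, Equiv.apply_symm_apply]; exact hl
  constructor
  · by_contra h
    apply h1
    simp only [co, sh_apply]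
    rw [hv _ (by linarith)]; simp
  · by_contra h
    apply h2
    simp only [co, sh_symm_apply]
    rw [hv _ (by linarith)]; simp

lemma InV.eq_zero {n : ℕ} (hn : 0 < n) {s : B} (hs : InV a n s)
    (h : ∀ l : Fin n, ∀ v, co s (v, (l : ℕ)) = 0) : s = 0 := by
  have key : ∀ q : ℤ, ∀ l : Fin n, ∀ v, co s (v, ((l : ℕ) : ℤ) + q * n) = 0 := by
    intro q
    induction q using Int.induction_on with
    | zero => simpa using h
    | succ q ih =>
      intro l v
      have := hs ((sh a n).symm (v, ((l : ℕ) : ℤ) + (q + 1) * n))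
      rw [Equiv.apply_symm_apply] at this
      rw [this, sh_symm_apply]
      convert ih l _ using 3
      simp only
      ring
    | pred q ih =>
      intro l v
      rw [← hs, sh_apply]
      convert ih l _ using 3
      simp only
      ring
  ext v l
  have hn' : (0 : ℤ) < n := by exact_mod_cast hn
  have h0 := Int.emod_nonneg l hn'.ne'
  have h1 := Int.emod_lt_of_pos l hn'
  have := key (l / n) ⟨(l % n).toNat, by omega⟩ v
  simp only [Int.toNat_of_nonneg h0] at this
  rw [show l % n + l / n * n = l from by rw [mul_comm]; exact Int.emod_add_mul_ediv l n] at this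
  simpa [co] using this

section ord

variable {R : Type*} [CommRing R]

lemma Ord.mono {w w' : ℝ} {s : HahnSeries ℝ R} (h : Ord w s) (hw : w' ≤ w) : Ord w' s :=
  fun v hv => h v (lt_of_lt_of_le hv hw)

lemma Ord.add {w : ℝ} {s t : HahnSeries ℝ R} (hs : Ord w s) (ht : Ord w t) : Ord w (s + t) :=
  fun v hv => by simp [hs v hv, ht v hv]

lemma Ord.sub {w : ℝ} {s t : HahnSeries ℝ R} (hs : Ord w s) (ht : Ord w t) : Ord w (s - t) :=
  fun v hv => by simp [hs v hv, ht v hv]

lemma Ord.mul {w w' : ℝ} {s t : HahnSeries ℝ R} (hs : Ord w s) (ht : Ord w' t) :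
    Ord (w + w') (s * t) := by
  intro v hv
  rw [HahnSeries.coeff_mul]
  refine Finset.sum_eq_zero fun ij hij => ?_
  obtain ⟨h1, h2, h3⟩ := Finset.mem_antidiagonal.1 hij
  exfalso
  have e1 : w ≤ ij.1 := not_lt.1 fun h => h1 (hs _ h)
  have e2 : w' ≤ ij.2 := not_lt.1 fun h => h2 (ht _ h)
  linarith

lemma Ord.coeff_mul {w w' : ℝ} {s t : HahnSeries ℝ R} (hs : Ord w s) (ht : Ord w' t) :
    (s * t).coeff (w + w') = s.coeff w * t.coeff w' := by
  rw [HahnSeries.coeff_mul, Finset.sum_eq_single (w, w')]
  · intro ij hij hne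
    obtain ⟨h1, h2, h3⟩ := Finset.mem_antidiagonal.1 hij
    exfalso
    have e1 : w ≤ ij.1 := not_lt.1 fun h => h1 (hs _ h)
    have e2 : w' ≤ ij.2 := not_lt.1 fun h => h2 (ht _ h)
    exact hne (Prod.ext (by simp only; linarith) (by simp only; linarith))
  · intro h
    rw [Finset.mem_antidiagonal] at h
    simp only [HahnSeries.mem_support, ne_eq, and_true, not_and, not_not] at h
    by_cases h1 : s.coeff w = 0
    · simp [h1]
    · simp [h h1]

lemma ord_single (w : ℝ) (p : R) : Ord w (HahnSeries.single w p) :=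
  fun _ hv => HahnSeries.coeff_single_of_ne hv.ne

lemma ord_order (s : HahnSeries ℝ R) : Ord s.order s :=
  fun _ hv => HahnSeries.coeff_eq_zero_of_lt_order hv

lemma Ord.hmap {S : Type*} [CommRing S] (f : R →+* S) {w : ℝ} {s : HahnSeries ℝ R} (h : Ord w s) :
    Ord w (hmap f s) := fun v hv => by simp [h v hv]

/-- A series whose lowest coefficient is a unit is a unit. -/
lemma Ord.isUnit [IsDomain R] {w : ℝ} {s : HahnSeries ℝ R} (h : Ord w s)
    (hu : IsUnit (s.coeff w)) : IsUnit s := by
  have h0 : s ≠ 0 := fun h0 => by simp [h0] at hu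
  have h1 : s.order = w := by
    refine le_antisymm (HahnSeries.order_le_of_coeff_ne_zero hu.ne_zero) (not_lt.1 fun hlt => ?_)
    exact h0 (HahnSeries.coeff_order_eq_zero.1 (h _ hlt))
  rw [HahnSeries.isUnit_iff, HahnSeries.leadingCoeff_eq, h1]
  exact hu

end ord

/-- `s = T^v ζ^l + higher order`. -/
def Lead (s : B) (v : ℝ) (l : ℤ) : Prop := Ord v s ∧ s.coeff v = T l

lemma Lead.mul {s t : B} {v w : ℝ} {l k : ℤ} (hs : Lead s v l) (ht : Lead t w k) :
    Lead (s * t) (v + w) (l + k) :=
  ⟨hs.1.mul ht.1, by rw [hs.1.coeff_mul ht.1, hs.2, ht.2, T_add]⟩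

lemma lead_one : Lead 1 0 0 := ⟨ord_single 0 1, by simp⟩

lemma Lead.pow {s : B} {v : ℝ} {l : ℤ} (hs : Lead s v l) (k : ℕ) :
    Lead (s ^ k) (k * v) (k * l) := by
  induction k with
  | zero => simpa using lead_one
  | succ k ih =>
    rw [pow_succ]
    convert ih.mul hs using 1 <;> push_cast <;> ring

lemma lead_of_ord {s : B} {v w : ℝ} {l : ℤ} (hw : v < w)
    (h : Ord w (s - HahnSeries.single v (T l))) : Lead s v l := by
  constructor
  · have := (h.mono hw.le).add (ord_single v (T l))
    simpa using this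
  · have := h v hw
    simpa [sub_eq_zero] using this

/-- Series with monomial leading terms of distinct `ζ`-degrees are independent over `K`. -/
lemma indep {ι : Type*} (S : Finset ι) (s : ι → B) (l : ι → ℤ)
    (hl : Set.InjOn l S) (h : ∀ i ∈ S, ∃ v, Lead (s i) v (l i)) (c : ι → K)
    (h0 : ∑ i ∈ S, iota (c i) * s i = 0) : ∀ i ∈ S, c i = 0 := by
  classical
  choose! v hv using h
  by_contra hne
  push Not at hne
  have hne' : (S.filter fun i => c i ≠ 0).Nonempty := by
    obtain ⟨i, hi, hc⟩ := hne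
    exact ⟨i, by simp [hi, hc]⟩
  obtain ⟨i₀, hi₀, hmin⟩ := Finset.exists_min_image _ (fun i => (c i).order + v i) hne'
  rw [Finset.mem_filter] at hi₀
  have key : ∀ i ∈ S, (iota (c i) * s i).coeff ((c i).order + v i) =
      LaurentPolynomial.C ((c i).coeff (c i).order) * T (l i) := fun i hi => by
    rw [iota, Ord.coeff_mul ((ord_order (c i)).hmap _) (hv i hi).1, (hv i hi).2]; rfl
  have := congrArg (fun z => co z ((c i₀).order + v i₀, l i₀)) h0
  simp only [co_sum] at this
  rw [Finset.sum_eq_single i₀] at this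
  · simp only [co, key i₀ hi₀.1, ← single_eq_C_mul_T] at this
    simp only [AddMonoidAlgebra.coeff_single, Finsupp.single_eq_same, HahnSeries.coeff_zero,
      AddMonoidAlgebra.coeff_zero, Finsupp.coe_zero, Pi.zero_apply] at this
    exact hi₀.2 (HahnSeries.coeff_order_eq_zero.1 this)
  · intro i hi hne
    by_cases hc : c i = 0
    · simp [hc, co]
    · have hle := hmin i (by simp [hi, hc])
      rcases hle.lt_or_eq with hlt | heq
      · have := (((ord_order (c i)).hmap LaurentPolynomial.C).mul (hv i hi).1) _ hlt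
        simp only [co]
        rw [show (iota (c i) * s i).coeff ((c i₀).order + v i₀) = 0 from this]; simp
      · simp only [co, heq, key i hi, ← single_eq_C_mul_T, AddMonoidAlgebra.coeff_single]
        exact Finsupp.single_eq_of_ne fun e => hne (hl hi hi₀.1 e.symm)
  · intro h; exact absurd hi₀.1 h

end Crest.Agent.R259
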